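import Crest.Agent.R330.IA2
import Crest.Agent.R330.IFA

/-! # Row 330, H/A (statements frozen; see `R330/Blueprint.lean`) -/

set_option autoImplicit false
set_option linter.unusedSectionVars false

noncomputable section

open MeasureTheory Filter Topology
open scoped InnerProductSpace ContDiff Matrix
open Crest.MathPhysics.MatrixQM (GammaNine)

namespace Crest.Agent.R330

variable {E F : Type} [NormedAddCommGroup E] [InnerProductSpace ℝ E] [FiniteDimensional ℝ E]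
  [MeasurableSpace E] [BorelSpace E]
  [NormedAddCommGroup F] [InnerProductSpace ℂ F] [FiniteDimensional ℂ F]
  (𝔤 : Lie E) (C : Cl (Th E) F) (σ : Spn)

theorem ha_self (g : X E → F) : ∫ x, ⟪g x, g x⟫_ℂ = ((∫ x, ‖g x‖ ^ 2 : ℝ) : ℂ) := by
  rw [← integral_complex_ofReal]
  simp [inner_self_eq_norm_sq_to_K]

theorem ha_cs {t f : X E → F} (ht : MemLp t 2 volume) (hf : MemLp f 2 volume) {a b : ℝ}
    (ha : ∫ x, ‖t x‖ ^ 2 ≤ a ^ 2) (hb : ∫ x, ‖f x‖ ^ 2 ≤ b ^ 2) (ha0 : 0 ≤ a) (hb0 : 0 ≤ b) :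
    ‖∫ x, ⟪t x, f x⟫_ℂ‖ ≤ a * b := by
  refine abs_le_of_sq_le_sq' ?_ (mul_nonneg ha0 hb0) |>.2
  rw [mul_pow]
  exact (fae_cs ht hf).trans (mul_le_mul ha hb (integral_nonneg fun x => sq_nonneg _) (sq_nonneg _))

theorem ha_int {ψ : X E → F} (hψ : Core ψ) {w : X E → ℝ} (hw : Continuous w) :
    Integrable fun x => w x * ‖ψ x‖ ^ 2 := fae_core_int hψ hw

theorem ha_comp (R : X E →L[ℝ] X E) (hR : ∀ x, ‖R x‖ = ‖x‖) {W : Type} [NormedAddCommGroup W]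
    [NormedSpace ℝ W] (g : X E → W) : ∫ x, g (R x) = ∫ x, g x :=
  (faA_mp R hR).integral_comp
    (fad_iso R hR).toHomeomorph.toMeasurableEquiv.measurableEmbedding g

theorem ha_θcore (K : X E →ₗ[ℝ] Th E) {ψ : X E → F} (hψ : Core ψ) : Core fun y => C.θ (K y) (ψ y) := by
  refine ⟨?_, HasCompactSupport.intro hψ.2 fun x hx => by simp [image_eq_zero_of_notMem_tsupport hx]⟩
  exact ((GC_θL C).contDiff.comp (LinearMap.toContinuousLinearMap K).contDiff).clm_apply hψ.1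

theorem ha_θbd (K : X E →ₗ[ℝ] Th E) {k : ℝ} (hk : ∀ x, ‖K x‖ ≤ k * ‖x‖) {ψ : X E → F} (hψ : Core ψ) :
    ∫ x, ‖C.θ (K x) (ψ x)‖ ^ 2 ≤ (k * √(∫ x, ‖x‖ ^ 2 * ‖ψ x‖ ^ 2)) ^ 2 := by
  rw [mul_pow, Real.sq_sqrt (integral_nonneg fun x => by positivity), ← integral_const_mul]
  refine integral_mono_of_nonneg (Eventually.of_forall fun x => sq_nonneg _)
    ((ha_int hψ (by fun_prop)).const_mul _) (Eventually.of_forall fun x => ?_)
  have := (C.norm_θ_le (K x) (ψ x)).trans (mul_le_mul_of_nonneg_right (hk x) (norm_nonneg _))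
  refine (pow_le_pow_left₀ (norm_nonneg _) this 2).trans (le_of_eq ?_)
  ring

theorem ha_Qbd {ψ : X E → F} (hψ : Cls 𝔤 C σ.G ∅ ψ) (α : Fin 16) :
    ∫ x, ‖Qu 𝔤 C σ.G (Pi.single α 1) ψ x‖ ^ 2 ≤ (4 * √(∫ x, ‖Qe 𝔤 C σ 0 ψ x‖ ^ 2)) ^ 2 := by
  rw [mul_pow, Real.sq_sqrt (integral_nonneg fun x => by positivity)]
  exact (norm_Qα_le 𝔤 C σ hψ α).trans (le_of_eq (by norm_num))

theorem ha_iint {φ ψ : X E → F} (hφ : Core φ) (hψ : Core ψ) : Integrable fun x => ⟪φ x, ψ x⟫_ℂ :=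
  fad_int hφ.memLp hψ.memLp

/-- The static form of the Hasler–Hoppe bound. -/
theorem ha_static {V : Matrix (Fin 9) (Fin 9) ℝ} (hV : Vᵀ = -V) : ∃ b : ℝ, 0 < b ∧
    ∀ φ ψ : X E → F, Cls 𝔤 C σ.G ∅ φ → Cls 𝔤 C σ.G ∅ ψ →
      ‖∫ x, ⟪φ x, C.S (mat (sig σ.G V)) (ψ x) - fderiv ℝ ψ x (mat V x)⟫_ℂ‖ ≤
        b * (√(∫ x, ‖Qe 𝔤 C σ 0 φ x‖ ^ 2) * √(∫ x, ‖x‖ ^ 2 * ‖ψ x‖ ^ 2) +
          √(∫ x, ‖x‖ ^ 2 * ‖φ x‖ ^ 2) * √(∫ x, ‖Qe 𝔤 C σ 0 ψ x‖ ^ 2)) := by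
  obtain ⟨K, hK⟩ := hh_identity 𝔤 C σ.G hV
  obtain ⟨k, hk0, hk⟩ : ∃ k : ℝ, 0 < k ∧ ∀ α x, ‖K α x‖ ≤ k * ‖x‖ := by
    refine ⟨1 + ∑ α, ‖LinearMap.toContinuousLinearMap (K α)‖, by positivity, fun α x => ?_⟩
    refine ((LinearMap.toContinuousLinearMap (K α)).le_opNorm x).trans
      (mul_le_mul_of_nonneg_right ?_ (norm_nonneg _))
    have := Finset.single_le_sum (f := fun α => ‖LinearMap.toContinuousLinearMap (K α)‖)
      (fun α _ => (LinearMap.toContinuousLinearMap (K α)).opNorm_nonneg) (Finset.mem_univ α)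
    linarith
  refine ⟨64 * k, by positivity, fun φ ψ hφ hψ => ?_⟩
  have cQ : ∀ (α : Fin 16) {g : X E → F}, Core g → Core (Qu 𝔤 C σ.G (Pi.single α 1) g) := fun α g hg =>
    hg.dirac C _ (contDiff_wpot 𝔤 σ.G _)
  have e : ∀ x, ⟪φ x, C.S (mat (sig σ.G V)) (ψ x) - fderiv ℝ ψ x (mat V x)⟫_ℂ =
      -Complex.I * ∑ α, (⟪φ x, Qu 𝔤 C σ.G (Pi.single α 1) (fun y => C.θ (K α y) (ψ y)) x⟫_ℂ +
        ⟪C.θ (K α x) (φ x), Qu 𝔤 C σ.G (Pi.single α 1) ψ x⟫_ℂ) := fun x => by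
    simp only [C.inner_θ, ← inner_add_right, ← inner_sum]
    rw [hK ψ x (hψ.1.1.differentiable (by simp) x), inner_smul_right, ← mul_assoc, inner_sub_right,
      inner_sub_right]
    have : -Complex.I * -Complex.I = -1 := by simp
    rw [this]
    ring
  simp only [e]
  have i1 := fun α => ha_iint hφ.1 (cQ α (ha_θcore C (K α) hψ.1))
  have i2 := fun α => ha_iint (ha_θcore C (K α) hφ.1) (cQ α hψ.1)
  rw [integral_const_mul, norm_mul, norm_neg, Complex.norm_I, one_mul,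
    integral_finsetSum _ fun α _ => by exact (i1 α).add (i2 α)]
  refine (norm_sum_le _ _).trans ?_
  refine (Finset.sum_le_card_nsmul _ _ (4 * k * (√(∫ x, ‖Qe 𝔤 C σ 0 φ x‖ ^ 2) * √(∫ x, ‖x‖ ^ 2 * ‖ψ x‖ ^ 2) +
          √(∫ x, ‖x‖ ^ 2 * ‖φ x‖ ^ 2) * √(∫ x, ‖Qe 𝔤 C σ 0 ψ x‖ ^ 2))) fun α _ => ?_).trans (le_of_eq ?_)
  · rw [integral_add (i1 α) (i2 α)]
    refine (norm_add_le _ _).trans ?_
    have s1 : ∫ x, ⟪φ x, Qu 𝔤 C σ.G (Pi.single α 1) (fun y => C.θ (K α y) (ψ y)) x⟫_ℂ =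
        ∫ x, ⟪Qu 𝔤 C σ.G (Pi.single α 1) φ x, C.θ (K α x) (ψ x)⟫_ℂ :=
      (dirac_symm C _ (contDiff_wpot 𝔤 σ.G _).continuous (F_one hφ.1) (F_one (ha_θcore C (K α) hψ.1))
        (Or.inl hφ.1.2)).symm
    rw [s1]
    have b1 := ha_cs (cQ α hφ.1).memLp (ha_θcore C (K α) hψ.1).memLp (ha_Qbd 𝔤 C σ hφ α)
      (ha_θbd C (K α) (hk α) hψ.1) (by positivity) (by positivity)
    have b2 := ha_cs (ha_θcore C (K α) hφ.1).memLp (cQ α hψ.1).memLp (ha_θbd C (K α) (hk α) hφ.1)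
      (ha_Qbd 𝔤 C σ hψ α) (by positivity) (by positivity)
    linarith
  · simp only [Finset.card_univ, Fintype.card_fin, nsmul_eq_mul]
    push_cast
    ring

theorem ha_U {V : Matrix (Fin 9) (Fin 9) ℝ} (hV : Vᵀ = -V) (t : ℝ) (a : F) :
    ‖NormedSpace.exp ((t : ℂ) • C.S (mat (sig σ.G V))) a‖ = ‖a‖ := by
  simpa using C.norm_exp_S (isSkew_mat (E := E) (sig_skew σ.G hV)) t 0 a

theorem ha_R {V : Matrix (Fin 9) (Fin 9) ℝ} (hV : Vᵀ = -V) (t : ℝ) (x : X E) :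
    ‖rexp' (t • mat V) x‖ = ‖x‖ := norm_rexp' (ga_skew_smul (isSkew_mat hV) _) x

theorem ha_QH {ψ : X E → F} (hψ : Cls 𝔤 C σ.G ∅ ψ) :
    ((∫ x, ‖Qe 𝔤 C σ 0 ψ x‖ ^ 2 : ℝ) : ℂ) = ∫ x, ⟪ψ x, H0 𝔤 C σ ψ x⟫_ℂ := by
  rw [← ha_self, Qe_zero]
  refine (dirac_symm C _ (contDiff_wpot 𝔤 σ.G _).continuous (F_one hψ.1)
    (F_one (Core.dirac C _ (contDiff_wpot 𝔤 σ.G _) hψ.1)) (Or.inl hψ.1.2)).trans ?_
  refine integral_congr_ae (Eventually.of_forall fun x => ?_)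
  exact congrArg _ (Qu_sq 𝔤 C σ σ.unit σ.h8 (F_two hψ.1 x) (hψ.2.1 x))

theorem ha_Qrot {V : Matrix (Fin 9) (Fin 9) ℝ} (hV : Vᵀ = -V) (t : ℝ) {ψ : X E → F}
    (hψ : Cls 𝔤 C σ.G ∅ ψ) :
    ∫ x, ‖Qe 𝔤 C σ 0 (fun x => NormedSpace.exp ((t : ℂ) • C.S (mat (sig σ.G V)))
      (ψ (rexp' ((-t) • mat V) x))) x‖ ^ 2 = ∫ x, ‖Qe 𝔤 C σ 0 ψ x‖ ^ 2 := by
  obtain ⟨h1, h2⟩ := rot_cls 𝔤 C σ hV t hψ
  apply Complex.ofReal_injective
  refine (ha_QH 𝔤 C σ h1).trans (Eq.trans ?_ (ha_QH 𝔤 C σ hψ).symm)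
  refine Eq.trans ?_ (ha_comp _ (ha_R (E := E) hV (-t)) fun x => ⟪ψ x, H0 𝔤 C σ ψ x⟫_ℂ)
  refine integral_congr_ae (Eventually.of_forall fun x => ?_)
  beta_reduce
  rw [h2]
  exact (LinearIsometry.mk (NormedSpace.exp ((t : ℂ) • C.S (mat (sig σ.G V)))).toLinearMap
    (ha_U C σ hV t)).inner_map_map _ _

theorem ha_xrot {V : Matrix (Fin 9) (Fin 9) ℝ} (hV : Vᵀ = -V) (t : ℝ) (ψ : X E → F) :
    ∫ x, ‖x‖ ^ 2 * ‖NormedSpace.exp ((t : ℂ) • C.S (mat (sig σ.G V))) (ψ (rexp' ((-t) • mat V) x))‖ ^ 2 =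
      ∫ x, ‖x‖ ^ 2 * ‖ψ x‖ ^ 2 := by
  refine Eq.trans ?_ (ha_comp _ (ha_R (E := E) hV (-t)) fun x => ‖x‖ ^ 2 * ‖ψ x‖ ^ 2)
  refine integral_congr_ae (Eventually.of_forall fun x => ?_)
  beta_reduce
  rw [ha_U C σ hV, ha_R hV]

theorem ha_pt (S : F →L[ℂ] F) (A : X E →ₗ[ℝ] X E) {φ : X E → F} (hφ : Differentiable ℝ φ) (x : X E) (t : ℝ) :
    HasDerivAt (fun s : ℝ => NormedSpace.exp ((s : ℂ) • S) (φ (rexp' ((-s) • A) x)))
      (S (NormedSpace.exp ((t : ℂ) • S) (φ (rexp' ((-t) • A) x))) -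
        fderiv ℝ (fun y => NormedSpace.exp ((t : ℂ) • S) (φ (rexp' ((-t) • A) y))) x (A x)) t := by
  have h1 : HasDerivAt (fun s : ℝ => rexp' ((-s) • A) x) (-(rexp' ((-t) • A) (A x))) t := by
    have h := ((ba_hasDerivAt_clm' A (-t)).clm_apply (hasDerivAt_const (-t) x)).scomp t (hasDerivAt_neg t)
    refine h.congr_deriv ?_
    simp
  have h2 := gb_exp S ((hφ _).hasFDerivAt.comp_hasDerivAt t h1)
  rw [gb_fd _ _ hφ]
  refine h2.congr_deriv (Eq.symm ?_)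
  have hc : Commute S (NormedSpace.exp ((t : ℂ) • S)) :=
    Commute.exp_right ((Commute.refl S).smul_right _)
  rw [map_add, map_neg, map_neg, sub_eq_add_neg]
  congr 1
  exact DFunLike.congr_fun hc.eq _

theorem ha_deriv {V : Matrix (Fin 9) (Fin 9) ℝ} (hV : Vᵀ = -V) {φ : X E → F} (hφ : Cls 𝔤 C σ.G ∅ φ)
    (t : ℝ) : HasDerivAt (fun s : ℝ => ∫ x, ⟪φ x, NormedSpace.exp ((s : ℂ) • C.S (mat (sig σ.G V)))
      (φ (rexp' ((-s) • mat V) x))⟫_ℂ)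
      (∫ x, ⟪φ x, C.S (mat (sig σ.G V)) (NormedSpace.exp ((t : ℂ) • C.S (mat (sig σ.G V)))
        (φ (rexp' ((-t) • mat V) x))) - fderiv ℝ (fun y => NormedSpace.exp ((t : ℂ) • C.S (mat (sig σ.G V)))
          (φ (rexp' ((-t) • mat V) y))) x (mat V x)⟫_ℂ) t := by
  have hd : Differentiable ℝ φ := hφ.1.1.differentiable (by simp)
  have hc := fun s => (rot_cls 𝔤 C σ hV s hφ).1.1
  obtain ⟨M, hM⟩ := hφ.1.1.continuous.bounded_above_of_compact_support hφ.1.2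
  obtain ⟨M', hM'⟩ := (hφ.1.1.continuous_fderiv (by simp)).bounded_above_of_compact_support
    (hφ.1.2.fderiv ℝ)
  have cA : Continuous (mat V : X E →ₗ[ℝ] X E) := LinearMap.continuous_of_finiteDimensional _
  refine (hasDerivAt_integral_of_dominated_loc_of_deriv_le (s := Set.univ)
    (F' := fun s x => ⟪φ x, C.S (mat (sig σ.G V)) (NormedSpace.exp ((s : ℂ) • C.S (mat (sig σ.G V)))
        (φ (rexp' ((-s) • mat V) x))) - fderiv ℝ (fun y => NormedSpace.exp ((s : ℂ) • C.S (mat (sig σ.G V)))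
          (φ (rexp' ((-s) • mat V) y))) x (mat V x)⟫_ℂ)
    (bound := fun x => ‖φ x‖ * (‖C.S (mat (sig σ.G V) : Th E →ₗ[ℝ] Th E)‖ * M + M' * ‖mat V x‖))
    univ_mem (Eventually.of_forall fun s => (ha_iint hφ.1 (hc s)).1) (ha_iint hφ.1 (hc t)) ?_
    (Eventually.of_forall fun x s _ => ?_) ?_ (Eventually.of_forall fun x s _ => ?_)).2
  · refine Continuous.aestronglyMeasurable (hφ.1.1.continuous.inner (Continuous.sub ?_ ?_))
    · exact (C.S _).continuous.comp (hc t).1.continuous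
    · exact ((hc t).1.continuous_fderiv (by simp)).clm_apply cA
  · refine (norm_inner_le_norm _ _).trans (mul_le_mul_of_nonneg_left ?_ (norm_nonneg _))
    refine (norm_sub_le _ _).trans (add_le_add ?_ ?_)
    · refine ((C.S _).le_opNorm _).trans (mul_le_mul_of_nonneg_left ?_ (norm_nonneg _))
      rw [ha_U C σ hV]
      exact hM _
    · rw [gb_fd _ _ hd, ha_U C σ hV]
      refine (ContinuousLinearMap.le_opNorm _ _).trans ?_
      rw [ha_R hV]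
      exact mul_le_mul_of_nonneg_right (hM' _) (norm_nonneg _)
  · refine (hφ.1.1.continuous.norm.mul (by fun_prop)).integrable_of_hasCompactSupport ?_
    exact HasCompactSupport.intro hφ.1.2 fun x hx => by simp [image_eq_zero_of_notMem_tsupport hx]
  · have := (hasDerivAt_const s (φ x)).inner ℂ (ha_pt (C.S (mat (sig σ.G V))) (mat V) hd x s)
    rw [inner_zero_left, add_zero] at this
    exact this

/-- Hasler–Hoppe inequality, finite form: `U_t φ = e^{tS} φ(e^{-tV} ·)`. -/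
theorem hh_ineq {V : Matrix (Fin 9) (Fin 9) ℝ} (hV : Vᵀ = -V) : ∃ b : ℝ, 0 < b ∧
    ∀ (t : ℝ) (φ : X E → F), Cls 𝔤 C σ.G ∅ φ →
      ‖(∫ x, ⟪φ x, NormedSpace.exp ((t : ℂ) • C.S (mat (sig σ.G V)))
          (φ (rexp' ((-t) • mat V) x))⟫_ℂ) - ((∫ x, ‖φ x‖ ^ 2 : ℝ) : ℂ)‖ ≤
        b * |t| * √(∫ x, ‖Qe 𝔤 C σ 0 φ x‖ ^ 2) * √(∫ x, ‖x‖ ^ 2 * ‖φ x‖ ^ 2) := by
  obtain ⟨b, hb, h⟩ := ha_static 𝔤 C σ hV
  refine ⟨2 * b, by positivity, fun t φ hφ => ?_⟩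
  have key := convex_univ.norm_image_sub_le_of_norm_hasDerivWithin_le
    (C := 2 * b * √(∫ x, ‖Qe 𝔤 C σ 0 φ x‖ ^ 2) * √(∫ x, ‖x‖ ^ 2 * ‖φ x‖ ^ 2))
    (fun s _ => (ha_deriv 𝔤 C σ hV hφ s).hasDerivWithinAt) (fun s _ => ?_) (Set.mem_univ 0) (Set.mem_univ t)
  · simp only [Complex.ofReal_zero, zero_smul, NormedSpace.exp_zero, neg_zero, rexp'_zero,
      one_apply_eq_self, ha_self, sub_zero, Real.norm_eq_abs] at key
    refine key.trans (le_of_eq ?_)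
    ring
  · refine (h φ _ hφ (rot_cls 𝔤 C σ hV s hφ).1).trans (le_of_eq ?_)
    rw [ha_Qrot 𝔤 C σ hV s hφ, ha_xrot C σ hV]
    ring

theorem ha_tail {Ψ : X E → F} (hΨ : MemLp Ψ 2 volume) {η : ℝ} (hη : 0 < η) : ∃ r : ℝ, 0 < r ∧
    Integrable (fun x => (if r ≤ ‖x‖ then 1 else 0 : ℝ) * ‖Ψ x‖ ^ 2) ∧
    ∫ x, (if r ≤ ‖x‖ then 1 else 0 : ℝ) * ‖Ψ x‖ ^ 2 ≤ η := by
  have hi : ∀ r : ℝ, Integrable (fun x => (if r ≤ ‖x‖ then 1 else 0 : ℝ) * ‖Ψ x‖ ^ 2) := fun r =>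
    (fae_int_sq hΨ).bdd_mul (c := 1) (Measurable.ite (measurableSet_le measurable_const measurable_norm)
      measurable_const measurable_const).aestronglyMeasurable
      (Eventually.of_forall fun x => by split_ifs <;> simp)
  have h := tendsto_integral_filter_of_dominated_convergence (l := atTop) (μ := volume)
    (F := fun (r : ℝ) (x : X E) => (if r ≤ ‖x‖ then 1 else 0 : ℝ) * ‖Ψ x‖ ^ 2) (f := fun _ => (0 : ℝ))
    (fun x => ‖Ψ x‖ ^ 2) (Eventually.of_forall fun r => (hi r).1)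
    (Eventually.of_forall fun r => Eventually.of_forall fun x => by split_ifs <;> simp) (fae_int_sq hΨ)
    (Eventually.of_forall fun x => tendsto_const_nhds.congr' (by
      filter_upwards [eventually_gt_atTop ‖x‖] with r hr
      rw [if_neg (not_le.2 hr), zero_mul]))
  rw [integral_zero] at h
  obtain ⟨r, h1, h2⟩ := ((h.eventually (ge_mem_nhds hη)).and (eventually_gt_atTop 0)).exists
  exact ⟨r, h2, hi r, h1⟩

theorem ha_approx {Ψ : X E → F} (hΨ : Ψ ∈ SK (flows 𝔤 C σ.G ∅) (Qe 𝔤 C σ 0)) {δ : ℝ} (hδ : 0 < δ) :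
    ∃ ψ, Cls 𝔤 C σ.G ∅ ψ ∧ ∫ x, ‖ψ x - Ψ x‖ ^ 2 ≤ δ ∧
      √(∫ x, ‖Qe 𝔤 C σ 0 ψ x‖ ^ 2) * √(∫ x, ‖x‖ ^ 2 * ‖ψ x‖ ^ 2) ≤ δ := by
  have hw := contDiff_wd 𝔤 σ 0 (f := fun _ => 0) contDiff_const
  obtain ⟨hm, φ, h1, h2, h3⟩ := fae_sk C (cmap σ.G σ.s) hw hΨ
  obtain ⟨b, hb, hχ⟩ := exists_radial_cutoff (Y := X E)
  set N := ∫ x, ‖Ψ x‖ ^ 2 with hN
  have hN0 : 0 ≤ N := integral_nonneg fun x => sq_nonneg _
  obtain ⟨η, hη, e1, e2, e3⟩ : ∃ η : ℝ, 0 < η ∧ η ≤ 1 ∧ 4 * η ≤ δ ∧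
      16 * (1 + 4 * b ^ 2) * (1 + N) * η ≤ δ ^ 2 := by
    refine ⟨min 1 (min (δ / 4) (δ ^ 2 / (16 * (1 + 4 * b ^ 2) * (1 + N)))), by positivity, min_le_left _ _,
      ?_, ?_⟩
    · have := (min_le_right 1 _).trans (min_le_left (δ / 4) (δ ^ 2 / (16 * (1 + 4 * b ^ 2) * (1 + N))))
      linarith
    · have := (min_le_right 1 _).trans (min_le_right (δ / 4) (δ ^ 2 / (16 * (1 + 4 * b ^ 2) * (1 + N))))
      rwa [le_div_iff₀ (by positivity), mul_comm] at this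
  obtain ⟨r, hr, iT, hT⟩ := ha_tail hm hη
  obtain ⟨χ, c1, -, c3, c4, c5, c6, c7, c8⟩ := hχ r hr
  obtain ⟨n, hd, hq⟩ := ((h2.eventually (ge_mem_nhds hη)).and
    (h3.eventually (ge_mem_nhds (by positivity : 0 < η / r ^ 2)))).exists
  have hc : Core (φ n) := (h1 n).1
  have id : Integrable fun x => ‖φ n x - Ψ x‖ ^ 2 := fae_int_sq (hc.memLp.sub hm)
  have iq : Integrable fun x => ‖Qe 𝔤 C σ 0 (φ n) x‖ ^ 2 := F_sq (hc.dirac C (cmap σ.G σ.s) hw)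
  have iN := fae_int_sq hm
  change ∫ x, ‖Qe 𝔤 C σ 0 (φ n) x‖ ^ 2 ≤ _ at hq
  have hφ : ∀ x, ‖φ n x‖ ^ 2 ≤ 2 * ‖φ n x - Ψ x‖ ^ 2 + 2 * ‖Ψ x‖ ^ 2 := fun x => by
    have := fae_add_sq (φ n x - Ψ x) (Ψ x)
    rwa [sub_add_cancel] at this
  have nχ : ∀ x (a : F), ‖(χ x : ℂ) • a‖ ^ 2 ≤ ‖a‖ ^ 2 := fun x a => by
    rw [norm_smul, Complex.norm_real, Real.norm_of_nonneg (c3 x).1]
    exact pow_le_pow_left₀ (mul_nonneg (c3 x).1 (norm_nonneg _))
      (mul_le_of_le_one_left (norm_nonneg _) (c3 x).2) 2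
  refine ⟨fun y => (χ y : ℂ) • φ n y, (cls_iff_ds 𝔤 C σ.G ∅ _).2
    ((h1 n).smul c1 (invS_radial 𝔤 C σ.G (fun _ hp => hp.elim) c8)), ?_, ?_⟩
  · refine (integral_mono_of_nonneg (Eventually.of_forall fun x => sq_nonneg _)
      ((id.const_mul 2).add (iT.const_mul 2)) (Eventually.of_forall fun x => ?_)).trans ?_
    · have e : (χ x : ℂ) • φ n x - Ψ x = (χ x : ℂ) • (φ n x - Ψ x) - ((1 - χ x : ℝ) : ℂ) • Ψ x := by
        push_cast
        module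
      simp only [Pi.add_apply]
      rw [e]
      refine (fae_sub_sq _ _).trans (add_le_add (by linarith [nχ x (φ n x - Ψ x)]) ?_)
      rw [norm_smul, Complex.norm_real, Real.norm_of_nonneg (sub_nonneg.2 (c3 x).2), mul_pow]
      split_ifs with h
      · have : (1 - χ x) ^ 2 ≤ 1 := pow_le_one₀ (sub_nonneg.2 (c3 x).2) (by linarith [(c3 x).1])
        gcongr
      · rw [c4 x (not_le.1 h).le]
        simp
    · simp only [Pi.add_apply]
      rw [integral_add (id.const_mul 2) (iT.const_mul 2), integral_const_mul, integral_const_mul]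
      linarith
  · have bA : ∫ x, ‖Qe 𝔤 C σ 0 (fun y => (χ y : ℂ) • φ n y) x‖ ^ 2 ≤ 2 * (1 + 4 * b ^ 2) * η / r ^ 2 := by
      refine (integral_mono_of_nonneg (Eventually.of_forall fun x => sq_nonneg _)
        ((iq.const_mul 2).add ((id.add iT).const_mul (4 * (b / r) ^ 2)))
        (Eventually.of_forall fun x => ?_)).trans ?_
      · simp only [Pi.add_apply]
        rw [Qe, Qd, dirac_smul C _ _ (c1.differentiable (by simp) x) (hc.1.differentiable (by simp) x)]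
        refine (fae_sub_sq _ _).trans (add_le_add (mul_le_mul_of_nonneg_left (nχ x _) zero_le_two) ?_)
        have n2 : ‖Complex.I • C.θ (cmap σ.G σ.s (gradient χ x)) (φ n x)‖ ≤ ‖gradient χ x‖ * ‖φ n x‖ := by
          rw [norm_smul, Complex.norm_I, one_mul, ← norm_cmap σ.G σ.unit (gradient χ x)]
          exact C.norm_θ_le _ _
        have n3 := pow_le_pow_left₀ (norm_nonneg _) n2 2
        split_ifs with h
        · have n4 := mul_le_mul (pow_le_pow_left₀ (norm_nonneg _) (c6 x) 2) (hφ x) (sq_nonneg _) (sq_nonneg _)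
          rw [mul_pow] at n3
          linarith
        · rw [c7 x (Or.inl (not_le.1 h)), norm_zero, zero_mul] at n3
          have : 0 ≤ 4 * (b / r) ^ 2 * (‖φ n x - Ψ x‖ ^ 2 + 0 * ‖Ψ x‖ ^ 2) := by positivity
          rw [c7 x (Or.inl (not_le.1 h))]
          linarith
      · simp only [Pi.add_apply]
        rw [integral_add (iq.const_mul 2) (by exact (id.add iT).const_mul _), integral_const_mul,
          integral_const_mul, integral_add id iT]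
        have := mul_le_mul_of_nonneg_left (add_le_add hd hT) (by positivity : 0 ≤ 4 * (b / r) ^ 2)
        refine (add_le_add (mul_le_mul_of_nonneg_left hq zero_le_two) this).trans (le_of_eq ?_)
        ring
    have bB : ∫ x, ‖x‖ ^ 2 * ‖(χ x : ℂ) • φ n x‖ ^ 2 ≤ 8 * r ^ 2 * (1 + N) := by
      refine (integral_mono_of_nonneg (Eventually.of_forall fun x => by positivity)
        ((id.add iN).const_mul (8 * r ^ 2)) (Eventually.of_forall fun x => ?_)).trans ?_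
      · simp only [Pi.add_apply]
        rcases le_total (2 * r) ‖x‖ with h | h
        · rw [c5 x h, Complex.ofReal_zero, zero_smul, norm_zero, zero_pow two_ne_zero, mul_zero]
          positivity
        · have := mul_le_mul (pow_le_pow_left₀ (norm_nonneg _) h 2) ((nχ x _).trans (hφ x)) (sq_nonneg _)
            (sq_nonneg _)
          linarith
      · simp only [Pi.add_apply]
        rw [integral_const_mul, integral_add id iN]
        exact mul_le_mul_of_nonneg_left (add_le_add (hd.trans e1) le_rfl) (by positivity)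
    rw [← Real.sqrt_mul (integral_nonneg fun x => sq_nonneg _), Real.sqrt_le_left hδ.le]
    refine (mul_le_mul bA bB (integral_nonneg fun x => by positivity) (by positivity)).trans
      (le_trans (le_of_eq ?_) e3)
    field_simp
    ring

theorem ha_inv {V : Matrix (Fin 9) (Fin 9) ℝ} (hV : Vᵀ = -V) (t : ℝ) {Ψ : X E → F}
    (hΨ : Ψ ∈ SK (flows 𝔤 C σ.G ∅) (Qe 𝔤 C σ 0)) : ∀ᵐ x, Ψ (rexp' (t • mat V) x) =
      NormedSpace.exp ((t : ℂ) • C.S (mat (sig σ.G V))) (Ψ x) := by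
  obtain ⟨b, hb, hH⟩ := hh_ineq 𝔤 C σ hV
  have hU := ha_U C σ hV t
  have hR := ha_R (E := E) hV (-t)
  have hrot := fun ψ => rot_cls 𝔤 C σ hV t (ψ := ψ)
  replace hH := hH t
  have hRR : ∀ x : X E, rexp' ((-t) • mat V) (rexp' (t • mat V) x) = x := fun x => by
    rw [← rexp'_add_smul, neg_add_cancel, zero_smul, rexp'_zero]
  generalize NormedSpace.exp ((t : ℂ) • C.S (mat (sig σ.G V))) = U at *
  generalize rexp' ((-t) • mat V : X E →ₗ[ℝ] X E) = R at *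
  have hm : MemLp Ψ 2 volume := hΨ.1
  have mU : ∀ {g : X E → F}, MemLp g 2 volume → MemLp (fun x => U (g (R x))) 2 volume := fun hg =>
    U.comp_memLp' (hg.comp_measurePreserving (faA_mp R hR))
  have nU : ∀ g : X E → F, ∫ x, ‖U (g (R x))‖ ^ 2 = ∫ x, ‖g x‖ ^ 2 := fun g => by
    simp only [hU]
    exact ha_comp R hR fun x => ‖g x‖ ^ 2
  have key : ∀ δ : ℝ, 0 < δ → ∫ x, ‖U (Ψ (R x)) - Ψ x‖ ^ 2 ≤ (8 + 8 * (b * |t|)) * δ := fun δ hδ => by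
    obtain ⟨ψ, h1, h2, h3⟩ := ha_approx 𝔤 C σ hΨ hδ
    have m1 := h1.1.memLp
    have i1 : Integrable fun x => ‖U ((ψ - Ψ) (R x))‖ ^ 2 := fae_int_sq (mU (m1.sub hm))
    have i2 : Integrable fun x => ‖U (ψ (R x)) - ψ x‖ ^ 2 := fae_int_sq ((mU m1).sub m1)
    have i3 : Integrable fun x => ‖ψ x - Ψ x‖ ^ 2 := fae_int_sq (m1.sub hm)
    have b1 : ∫ x, ‖U ((ψ - Ψ) (R x))‖ ^ 2 ≤ δ := (nU _).trans_le h2
    have b2 : ∫ x, ‖U (ψ (R x)) - ψ x‖ ^ 2 ≤ 2 * (b * |t|) * δ := by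
      have j1 := fae_int_sq (mU m1)
      have j2 := fae_int_sq m1
      have j3 := fad_int m1 (mU m1)
      have e : ∀ x, ‖U (ψ (R x)) - ψ x‖ ^ 2 =
          ‖ψ x‖ ^ 2 - 2 * RCLike.re ⟪ψ x, U (ψ (R x))⟫_ℂ + ‖U (ψ (R x))‖ ^ 2 := fun x => by
        rw [norm_sub_rev, norm_sub_sq (𝕜 := ℂ)]
      simp only [e]
      rw [integral_add (by exact j2.sub (j3.re.const_mul 2)) j1, integral_sub j2 (j3.re.const_mul 2),
        integral_const_mul, integral_re j3, nU]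
      have a1 := (hH ψ h1).trans (le_of_eq (mul_assoc _ _ _))
      have a2 := mul_le_mul_of_nonneg_left h3 (by positivity : 0 ≤ b * |t|)
      have a3 := (neg_abs_le _).trans' (neg_le_neg ((Complex.abs_re_le_norm _).trans (a1.trans a2)))
      rw [Complex.sub_re, Complex.ofReal_re] at a3
      change _ - 2 * Complex.re _ + _ ≤ _
      linarith
    refine (integral_mono_of_nonneg (Eventually.of_forall fun x => sq_nonneg _)
      (((i1.const_mul 4).add (i2.const_mul 4)).add (i3.const_mul 2))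
      (Eventually.of_forall fun x => ?_)).trans ?_
    · simp only [Pi.add_apply]
      have e : U (Ψ (R x)) - Ψ x = (U (ψ (R x)) - ψ x - U ((ψ - Ψ) (R x))) + (ψ x - Ψ x) := by
        rw [Pi.sub_apply, map_sub]
        abel
      rw [e]
      linarith [fae_add_sq (U (ψ (R x)) - ψ x - U ((ψ - Ψ) (R x))) (ψ x - Ψ x),
        fae_sub_sq (U (ψ (R x)) - ψ x) (U ((ψ - Ψ) (R x)))]
    · simp only [Pi.add_apply]
      rw [integral_add (by exact (i1.const_mul 4).add (i2.const_mul 4)) (i3.const_mul 2),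
        integral_add (i1.const_mul 4) (i2.const_mul 4), integral_const_mul, integral_const_mul,
        integral_const_mul]
      linarith
  have h0 : ∫ x, ‖U (Ψ (R x)) - Ψ x‖ ^ 2 = 0 := by
    refine le_antisymm (le_of_forall_pos_le_add fun ε hε => ?_) (integral_nonneg fun x => sq_nonneg _)
    have p : 0 < 8 + 8 * (b * |t|) := by positivity
    refine (key (ε / (8 + 8 * (b * |t|))) (by positivity)).trans (le_of_eq ?_)
    field_simp
    ring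
  have h1 := (integral_eq_zero_iff_of_nonneg (fun x => sq_nonneg _) (fae_int_sq ((mU hm).sub hm))).1 h0
  filter_upwards [(faA_mp _ (ha_R (E := E) hV t)).quasiMeasurePreserving.ae h1] with x hx
  simp only [Pi.sub_apply, Pi.zero_apply, hRR, pow_eq_zero_iff two_ne_zero, norm_eq_zero, sub_eq_zero] at hx
  exact hx.symm

/-- Zero modes of the undeformed model are rotation invariant and even. -/
theorem ker0_sym {Ψ : X E → F} (hΨ : Ψ ∈ SK (flows 𝔤 C σ.G ∅) (Qe 𝔤 C σ 0)) :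
    HS (withPar (flows 𝔤 C σ.G neut) (par C σ.G)) Ψ := by
  have hG : HS (flows 𝔤 C σ.G ∅) Ψ := by
    obtain ⟨hm, φ, h1, h2, -⟩ := hΨ
    exact HS.of_tendsto (symOK_flows 𝔤 C σ.G fun _ hp => hp.elim) (fun n => (h1 n).hs) hm h2
  refine ⟨hΨ.1, ?_⟩
  rintro _ (rfl | ⟨ξ, rfl⟩ | ⟨q, hq, t, rfl⟩)
  · filter_upwards [ha_inv 𝔤 C σ (pl_skew 0 1) (2 * Real.pi) hΨ] with x hx
    rw [rexp'_pl_two_pi] at hx
    exact hx
  · exact hG.2 _ (Or.inl ⟨ξ, rfl⟩)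
  · obtain rfl : q = (V0, 0) := hq
    filter_upwards [ha_inv 𝔤 C σ V0_skew t hΨ] with x hx
    simpa using hx

end Crest.Agent.R330

end
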