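import Crest.Agent.R330.IA2
import Crest.Agent.R330.IFA

/-! # Row 330, H/B (statements frozen; see `R330/Blueprint.lean`) -/

set_option autoImplicit false
set_option linter.unusedSectionVars false

noncomputable section

open MeasureTheory Filter Topology
open scoped InnerProductSpace ContDiff Matrix
open Crest.MathPhysics.MatrixQM (GammaNine)

namespace Crest.Agent.R330

section aux

variable {Y F : Type} [NormedAddCommGroup Y] [InnerProductSpace ℝ Y] [FiniteDimensional ℝ Y]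
  [MeasurableSpace Y] [BorelSpace Y]
  [NormedAddCommGroup F] [InnerProductSpace ℂ F] [FiniteDimensional ℂ F]

theorem hb_int {ψ : Y → F} (hψ : Core ψ) {a : Y → ℝ} (ha : Measurable a) (B : ℝ)
    (hB : ∀ x, |a x| ≤ B) : Integrable fun x => a x * ‖ψ x‖ ^ 2 :=
  (fae_int_sq hψ.memLp).bdd_mul ha.aestronglyMeasurable (Eventually.of_forall hB)

theorem hb_sq (a b : F) : ‖a - b‖ ^ 2 ≤ 11 * ‖a‖ ^ 2 + 11 / 10 * ‖b‖ ^ 2 := by
  have h := pow_le_pow_left₀ (norm_nonneg _) (norm_sub_le a b) 2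
  nlinarith [sq_nonneg (10 * ‖a‖ - ‖b‖)]

theorem hb_ind (r A : ℝ) (ψ : Y → F) :
    ∫ x, (Metric.closedBall (0 : Y) r).indicator (fun _ => A) x * ‖ψ x‖ ^ 2 =
      A * ∫ x in Metric.closedBall 0 r, ‖ψ x‖ ^ 2 := by
  rw [← integral_const_mul, ← integral_indicator measurableSet_closedBall]
  refine integral_congr_ae (Eventually.of_forall fun x => ?_)
  by_cases h : x ∈ Metric.closedBall (0 : Y) r <;> simp [h]

theorem hb_ind_int {ψ : Y → F} (hψ : Core ψ) (r A : ℝ) :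
    Integrable fun x => (Metric.closedBall (0 : Y) r).indicator (fun _ => A) x * ‖ψ x‖ ^ 2 :=
  hb_int hψ (measurable_const.indicator measurableSet_closedBall) |A| fun x => by
    by_cases h : x ∈ Metric.closedBall (0 : Y) r <;> simp [h]

theorem hb_weight {r : ℝ} (hr : 0 < r) : ∃ B : ℝ, 0 < B ∧ ∀ (ϖ : Y → ℝ) (A : ℝ),
    ContDiffOn ℝ ∞ ϖ {x | x ≠ 0} → (∀ x, 0 ≤ ϖ x ∧ ϖ x ≤ 1) → (∀ x y, ‖x‖ = ‖y‖ → ϖ x = ϖ y) →
    (∀ x, x ≠ 0 → ‖fderiv ℝ ϖ x‖ ≤ 5 / 4 * ϖ x / ‖x‖) → (∀ x, ‖x‖ ≤ 2 * r → ϖ x ^ 2 ≤ A) →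
    ∃ g : Y → ℝ, ContDiff ℝ ∞ g ∧ (∀ x y, ‖x‖ = ‖y‖ → g x = g y) ∧ (∀ x, ‖x‖ ≤ r → g x = 0) ∧
      (∀ x, 2 * r ≤ ‖x‖ → g x = ϖ x) ∧ (∀ x, g x ^ 2 ≤ 1) ∧ ∀ x, ‖gradient g x‖ ^ 2 ≤
        55 / 32 * (1 / ‖x‖ ^ 2 * g x ^ 2) + (Metric.closedBall (0 : Y) (2 * r)).indicator
          (fun _ => B * A) x := by
  obtain ⟨b, hb, h⟩ := exists_radial_cutoff (Y := Y)
  obtain ⟨χ, c1, -, c2, c3, c4, c5, c6, c7⟩ := h r hr
  refine ⟨11 * (b / r) ^ 2, by positivity, fun ϖ A h1 h2 h3 h4 h5 => ?_⟩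
  have hA : 0 ≤ A := (sq_nonneg _).trans (h5 0 (by simp; positivity))
  have ho : IsOpen {x : Y | x ≠ 0} := isOpen_ne
  refine ⟨fun x => (1 - χ x) * ϖ x, contDiff_of_support (K := {x | r ≤ ‖x‖})
    (isClosed_le continuous_const continuous_norm) ho (fun x hx => norm_pos_iff.1 (hr.trans_le hx))
    (fun x hx => by rw [c3 x (not_le.1 hx).le]; simp)
    ((contDiff_const.sub c1).contDiffOn.mul h1), fun x y hxy => by simp only [c7 x y hxy, h3 x y hxy],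
    fun x hx => by simp [c3 x hx], fun x hx => by simp [c4 x hx], fun x => ?_, fun x => ?_⟩
  · have a1 := c2 x
    have a2 := h2 x
    exact pow_le_one₀ (mul_nonneg (sub_nonneg.2 a1.2) a2.1) (mul_le_one₀ (by linarith) a2.1 a2.2)
  have hi : 0 ≤ (Metric.closedBall (0 : Y) (2 * r)).indicator (fun _ => 11 * (b / r) ^ 2 * A) x :=
    Set.indicator_nonneg (fun _ _ => by positivity) x
  by_cases hx : ‖x‖ < r
  · have : (fun x => (1 - χ x) * ϖ x) =ᶠ[𝓝 x] fun _ => 0 := by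
      filter_upwards [(isOpen_lt continuous_norm continuous_const).mem_nhds hx] with y hy
      rw [c3 y (le_of_lt hy)]; simp
    rw [this.gradient_eq, gradient_fun_const, norm_zero, zero_pow two_ne_zero]
    positivity
  have hx0 : 0 < ‖x‖ := hr.trans_le (not_lt.1 hx)
  have hx' : x ≠ 0 := norm_pos_iff.1 hx0
  have d1 : DifferentiableAt ℝ ϖ x := (h1.contDiffAt (ho.mem_nhds hx')).differentiableAt (by simp)
  have d2 : DifferentiableAt ℝ χ x := c1.differentiable (by simp) x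
  have a1 := c2 x
  have a2 := h2 x
  have a3 : ‖gradient (fun x => (1 - χ x) * ϖ x) x‖ ≤
      5 / 4 * ((1 - χ x) * ϖ x / ‖x‖) + ϖ x * ‖gradient χ x‖ := by
    rw [gh_norm_gradient, gh_norm_gradient, fderiv_fun_mul (d2.const_sub 1) d1, fderiv_const_sub]
    refine (norm_add_le _ _).trans ?_
    rw [norm_smul, norm_smul, norm_neg, Real.norm_of_nonneg (sub_nonneg.2 a1.2),
      Real.norm_of_nonneg a2.1]
    refine add_le_add ((mul_le_mul_of_nonneg_left (h4 x hx') (sub_nonneg.2 a1.2)).trans_eq ?_) le_rfl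
    ring
  have a4 : 11 * (ϖ x * ‖gradient χ x‖) ^ 2 ≤
      (Metric.closedBall (0 : Y) (2 * r)).indicator (fun _ => 11 * (b / r) ^ 2 * A) x := by
    by_cases h : x ∈ Metric.closedBall (0 : Y) (2 * r)
    · rw [Set.indicator_of_mem h, mul_pow, mul_assoc, mul_comm _ A]
      exact mul_le_mul_of_nonneg_left (mul_le_mul (h5 x (mem_closedBall_zero_iff.1 h))
        (pow_le_pow_left₀ (norm_nonneg _) (c5 x) 2) (sq_nonneg _) hA) (by norm_num)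
    · rw [c6 x (Or.inr (by simpa using h))]
      simpa using hi
  have e : 1 / ‖x‖ ^ 2 * ((1 - χ x) * ϖ x) ^ 2 = ((1 - χ x) * ϖ x / ‖x‖) ^ 2 := by field_simp
  have a5 := pow_le_pow_left₀ (norm_nonneg _) a3 2
  rw [e]
  nlinarith [sq_nonneg (5 / 4 * ((1 - χ x) * ϖ x / ‖x‖) - 10 * (ϖ x * ‖gradient χ x‖))]

theorem hb_omega {L : ℝ} (hL : 1 ≤ L) : ∃ ϖ : Y → ℝ, ContDiffOn ℝ ∞ ϖ {x | x ≠ 0} ∧
    (∀ x, 0 ≤ ϖ x ∧ ϖ x ≤ 1) ∧ (∀ x y, ‖x‖ = ‖y‖ → ϖ x = ϖ y) ∧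
    (∀ x, x ≠ 0 → ‖fderiv ℝ ϖ x‖ ≤ 5 / 4 * ϖ x / ‖x‖) ∧
    (∀ r, 1 ≤ r → ∀ x, ‖x‖ ≤ r → ϖ x ^ 2 ≤ r ^ 4 * L ^ (-(5 / 2) : ℝ)) ∧
    ∀ x, L ≤ ‖x‖ → 1 ≤ 4 * ϖ x ^ 2 := by
  have hL0 : 0 < L := one_pos.trans_le hL
  have hp : ∀ x : Y, 0 < ‖x‖ ^ 2 + L ^ 2 := fun x => by positivity
  have hlog : ∀ x : Y, Real.log (‖x‖ ^ 2) ≤ Real.log (‖x‖ ^ 2 + L ^ 2) := fun x => by
    rcases (norm_nonneg x).eq_or_lt with h | h
    · rw [← h]
      simpa using Real.log_nonneg hL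
    · exact Real.log_le_log (by positivity) (by nlinarith)
  have hsq : ∀ s : ℝ, Real.exp (5 / 8 * s) ^ 2 = Real.exp (5 / 4 * s) := fun s => by
    rw [← Real.exp_nat_mul]; congr 1; push_cast; ring
  refine ⟨fun x => Real.exp (5 / 8 * (Real.log (‖x‖ ^ 2) - Real.log (‖x‖ ^ 2 + L ^ 2))), ?_,
    fun x => ⟨(Real.exp_pos _).le, Real.exp_le_one_iff.2 (by linarith [hlog x])⟩,
    fun x y h => by simp only [h], fun x hx => ?_, fun r hr x hx => ?_, fun x hx => ?_⟩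
  · have h := (contDiff_norm_sq ℝ (E := Y) (n := ∞)).contDiffOn (s := {x | x ≠ 0})
    exact (contDiffOn_const.mul ((h.log fun x hx => pow_ne_zero 2 (norm_ne_zero_iff.2 hx)).sub
      ((h.add contDiffOn_const).log fun x _ => (hp x).ne'))).exp
  · have h0 : 0 < ‖x‖ := norm_pos_iff.2 hx
    have d := ((((hasDerivAt_id (‖x‖ ^ 2)).log (pow_pos h0 2).ne').sub
      (((hasDerivAt_id (‖x‖ ^ 2)).add_const (L ^ 2)).log (hp x).ne')).const_mul (5 / 8)).exp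
    have h1 := fae_grad ((contDiff_norm_sq ℝ (E := Y) (n := 1)).differentiable (by simp)) x d
    rw [gh_norm_gradient, gh_norm_gradient, fderiv_norm_sq_apply] at h1
    refine h1.trans_le ?_
    have h2 : 1 / (‖x‖ ^ 2 + L ^ 2) ≤ 1 / ‖x‖ ^ 2 :=
      one_div_le_one_div_of_le (by positivity) (by nlinarith)
    have h3 : ‖(2 : ℕ) • innerSL ℝ x‖ = 2 * ‖x‖ := by
      rw [← Nat.cast_smul_eq_nsmul ℝ, norm_smul, innerSL_apply_norm]; simp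
    simp only [id, Pi.sub_apply] at *
    rw [h3, abs_of_nonneg (mul_nonneg (Real.exp_pos _).le (by linarith))]
    generalize hE : Real.exp _ = e
    have he : 0 < e := hE ▸ Real.exp_pos _
    calc _ ≤ e * (5 / 8 * (1 / ‖x‖ ^ 2)) * (2 * ‖x‖) := by
          gcongr
          exact sub_le_self _ (by positivity)
      _ = _ := by field_simp; norm_num
  · have h1 : Real.log (‖x‖ ^ 2) ≤ 2 * Real.log r := by
      rcases (norm_nonneg x).eq_or_lt with h | h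
      · rw [← h]
        simpa using Real.log_nonneg hr
      · rw [Real.log_pow]
        exact mul_le_mul_of_nonneg_left (Real.log_le_log h hx) (by norm_num)
    have h2 : 2 * Real.log L ≤ Real.log (‖x‖ ^ 2 + L ^ 2) := by
      have := Real.log_le_log (pow_pos hL0 2) (le_add_of_nonneg_left (sq_nonneg ‖x‖))
      rwa [Real.log_pow] at this
    rw [hsq, Real.rpow_def_of_pos hL0, ← Real.exp_log (pow_pos (one_pos.trans_le hr) 4), Real.log_pow r,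
      ← Real.exp_add, Real.exp_le_exp]
    push_cast
    linarith [Real.log_nonneg hr]
  · have h0 : 0 < ‖x‖ := hL0.trans_le hx
    have h1 : Real.log (‖x‖ ^ 2 + L ^ 2) ≤ Real.log 2 + Real.log (‖x‖ ^ 2) := by
      rw [← Real.log_mul two_ne_zero (by positivity)]
      exact Real.log_le_log (hp x) (by nlinarith)
    have h2 : (4 : ℝ) = Real.exp (2 * Real.log 2) := by
      rw [two_mul, Real.exp_add, Real.exp_log two_pos]; norm_num
    rw [hsq]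
    nth_rewrite 1 [h2]
    rw [← Real.exp_add, Real.one_le_exp_iff]
    linarith [Real.log_nonneg one_le_two]

theorem hb_wt {A : Y →ₗ[ℝ] Y} (hA : IsSkew A) {S : F →L[ℂ] F} {k : ℝ} {ψ : Y → F} (hψ : Core ψ)
    {g : Y → ℝ} (hg : ContDiff ℝ ∞ g) (hr : ∀ x y, ‖x‖ = ‖y‖ → g x = g y) {x : Y}
    (h : WtAt A S k ψ x) : WtAt A S k (fun y => (g y : ℂ) • ψ y) x :=
  h.smul (hψ.1.differentiable (by simp) x) (hg.differentiable (by simp) x)
    (fderiv_eq_zero_of_flow A (hg.differentiable (by simp) x) fun t =>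
      hr _ _ (norm_rexp' (ga_skew_smul hA t) x))

end aux

variable {E F : Type} [NormedAddCommGroup E] [InnerProductSpace ℝ E] [FiniteDimensional ℝ E]
  [MeasurableSpace E] [BorelSpace E]
  [NormedAddCommGroup F] [InnerProductSpace ℂ F] [FiniteDimensional ℂ F]
  (𝔤 : Lie E) (C : Cl (Th E) F) (σ : Spn)

theorem hb_sect {ε k : ℝ} {ψ : X E → F} (hψ : Sect 𝔤 C σ ε k ψ) {g : X E → ℝ} (hg : ContDiff ℝ ∞ g)
    (hr : ∀ x y, ‖x‖ = ‖y‖ → g x = g y) : Sect 𝔤 C σ ε k fun y => (g y : ℂ) • ψ y :=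
  ⟨⟨hψ.1.1.smul_of_contDiffOn isOpen_univ (Set.subset_univ _) hg.contDiffOn,
    fun x ξ => hb_wt (isSkew_lift (𝔤.isSkew_br ξ)) hψ.1.1 hg hr (hψ.1.2.1 x ξ), fun _ hp => hp.elim⟩,
    hψ.2.imp id fun h => ⟨h.1, fun x => hb_wt (isSkew_mat V0_skew) hψ.1.1 hg hr (h.2 x)⟩⟩

theorem hb_core (ε : ℝ) {ψ : X E → F} (hψ : Core ψ) : Core (Qe 𝔤 C σ ε ψ) :=
  hψ.dirac C _ (contDiff_wd 𝔤 σ ε contDiff_const)

theorem hb_main {r c ε k A : ℝ} (hr : 0 < r) {ψ : X E → F}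
    (hψ : Sect 𝔤 C σ ε k ψ) (h : ∀ ψ, Sect 𝔤 C σ ε k ψ → (∀ x, ‖x‖ ≤ r → ψ x = 0) →
      ∫ x, (1 / ‖x‖ ^ 2 + c * ε) * ‖ψ x‖ ^ 2 ≤ ∫ x, ‖Qe 𝔤 C σ ε ψ x‖ ^ 2) (hA : 0 ≤ A)
    {g : X E → ℝ} (h1 : ContDiff ℝ ∞ g) (h2 : ∀ x y, ‖x‖ = ‖y‖ → g x = g y)
    (h3 : ∀ x, ‖x‖ ≤ r → g x = 0) (h4 : ∀ x, g x ^ 2 ≤ 1) (h5 : ∀ x, ‖gradient g x‖ ^ 2 ≤
      55 / 32 * (1 / ‖x‖ ^ 2 * g x ^ 2) + (Metric.closedBall (0 : X E) (2 * r)).indicator
        (fun _ => A) x) {a : X E → ℝ} {K A' : ℝ} (hK : 0 ≤ K) (ha0 : ∀ x, 0 ≤ a x)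
    (ha' : ∀ x, a x ≤ K * (1 / 32 * (1 / ‖x‖ ^ 2 * g x ^ 2) + c * ε * g x ^ 2) +
      (Metric.closedBall (0 : X E) (2 * r)).indicator (fun _ => A') x) :
    ∫ x, a x * ‖ψ x‖ ^ 2 ≤ 11 * K * (∫ x, ‖Qe 𝔤 C σ ε ψ x‖ ^ 2) +
      (K * A + A') * ∫ x in Metric.closedBall 0 (2 * r), ‖ψ x‖ ^ 2 := by
  have hC := hψ.1.1
  have m1 := h1.continuous.measurable
  have i1 : Integrable fun x => (1 / ‖x‖ ^ 2 * g x ^ 2) * ‖ψ x‖ ^ 2 :=
    hb_int hC (by fun_prop) (1 / r ^ 2) fun x => by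
      rw [abs_of_nonneg (by positivity)]
      rcases le_total ‖x‖ r with hx | hx
      · rw [h3 x hx]; simp; positivity
      · exact (mul_le_of_le_one_right (by positivity) (h4 x)).trans (by gcongr)
  have i2 : Integrable fun x => g x ^ 2 * ‖ψ x‖ ^ 2 :=
    hb_int hC (by fun_prop) 1 fun x => by rw [abs_of_nonneg (sq_nonneg _)]; exact h4 x
  have i3 := fae_int_sq (hb_core 𝔤 C σ ε hC).memLp
  have hs := hb_sect 𝔤 C σ hψ h1 h2
  have b1 := h _ hs fun x hx => by simp [h3 x hx]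
  have e1 : ∫ x, (1 / ‖x‖ ^ 2 + c * ε) * ‖(g x : ℂ) • ψ x‖ ^ 2 =
      (∫ x, (1 / ‖x‖ ^ 2 * g x ^ 2) * ‖ψ x‖ ^ 2) + c * ε * ∫ x, g x ^ 2 * ‖ψ x‖ ^ 2 := by
    rw [← integral_const_mul, ← integral_add i1 (i2.const_mul _)]
    refine integral_congr_ae (Eventually.of_forall fun x => ?_)
    simp only [norm_smul, Complex.norm_real, Real.norm_eq_abs, mul_pow, sq_abs]
    ring
  have b2 : ∫ x, ‖Qe 𝔤 C σ ε (fun y => (g y : ℂ) • ψ y) x‖ ^ 2 ≤ 11 * (∫ x, ‖Qe 𝔤 C σ ε ψ x‖ ^ 2) +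
      31 / 32 * (∫ x, (1 / ‖x‖ ^ 2 * g x ^ 2) * ‖ψ x‖ ^ 2) +
      A * ∫ x in Metric.closedBall 0 (2 * r), ‖ψ x‖ ^ 2 := by
    rw [← hb_ind, ← integral_const_mul, ← integral_const_mul,
      ← integral_add (i3.const_mul _) (i1.const_mul _),
      ← integral_add ((i3.const_mul _).fun_add (i1.const_mul _)) (hb_ind_int hC _ _)]
    refine integral_mono (fae_int_sq (hb_core 𝔤 C σ ε hs.1.1).memLp)
      (((i3.const_mul _).add (i1.const_mul _)).add (hb_ind_int hC _ _)) fun x => ?_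
    have hd := dirac_smul C (cmap σ.G σ.s) (wd 𝔤 σ ε fun _ => 0) (x := x)
      (h1.differentiable (by simp) x) (hC.1.differentiable (by simp) x)
    have hb := hb_sq ((g x : ℂ) • Qe 𝔤 C σ ε ψ x)
      (Complex.I • C.θ (cmap σ.G σ.s (gradient g x)) (ψ x))
    refine (congrArg (‖·‖ ^ 2) hd).trans_le (hb.trans ?_)
    simp only [norm_smul, Complex.norm_real, Real.norm_eq_abs, mul_pow, sq_abs, Complex.norm_I,
      one_mul, C.norm_θ_sq, norm_cmap _ σ.unit]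
    have a1 := mul_le_mul_of_nonneg_right (h4 x) (sq_nonneg ‖Qe 𝔤 C σ ε ψ x‖)
    have a2 := mul_le_mul_of_nonneg_right (h5 x) (sq_nonneg ‖ψ x‖)
    have a3 := mul_nonneg (Set.indicator_nonneg (s := Metric.closedBall (0 : X E) (2 * r))
      (fun _ _ => hA) x) (sq_nonneg ‖ψ x‖)
    have a4 : 0 ≤ 1 / ‖x‖ ^ 2 * g x ^ 2 * ‖ψ x‖ ^ 2 := by positivity
    linarith
  have b3 : ∫ x, a x * ‖ψ x‖ ^ 2 ≤ K * (1 / 32 * (∫ x, (1 / ‖x‖ ^ 2 * g x ^ 2) * ‖ψ x‖ ^ 2) +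
      c * ε * ∫ x, g x ^ 2 * ‖ψ x‖ ^ 2) + A' * ∫ x in Metric.closedBall 0 (2 * r), ‖ψ x‖ ^ 2 := by
    have i4 := ((i1.const_mul (1 / 32)).fun_add (i2.const_mul (c * ε))).const_mul K
    rw [← hb_ind, ← integral_const_mul, ← integral_const_mul,
      ← integral_add (i1.const_mul _) (i2.const_mul _), ← integral_const_mul,
      ← integral_add i4 (hb_ind_int hC _ _)]
    refine integral_mono_of_nonneg (Eventually.of_forall fun x => mul_nonneg (ha0 x) (sq_nonneg _))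
      (i4.add (hb_ind_int hC _ _)) (Eventually.of_forall fun x => ?_)
    refine (mul_le_mul_of_nonneg_right (ha' x) (sq_nonneg ‖ψ x‖)).trans_eq ?_
    ring
  rw [e1] at b1
  have b4 := mul_le_mul_of_nonneg_left (show 1 / 32 * (∫ x, (1 / ‖x‖ ^ 2 * g x ^ 2) * ‖ψ x‖ ^ 2) +
    c * ε * ∫ x, g x ^ 2 * ‖ψ x‖ ^ 2 ≤ 11 * (∫ x, ‖Qe 𝔤 C σ ε ψ x‖ ^ 2) +
      A * ∫ x in Metric.closedBall 0 (2 * r), ‖ψ x‖ ^ 2 by linarith) hK
  linarith

/-- Tail estimate in the sector (polynomial Agmon weight `min(|x|/L, 1)^{5/4}`). -/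
theorem tail_ball (h : Hinf 𝔤 C σ) : ∃ K R ε₀ : ℝ, 0 < K ∧ 0 < R ∧ 0 < ε₀ ∧
    ∀ ε k L : ℝ, 0 ≤ ε → ε ≤ ε₀ → 1 ≤ L → ∀ ψ, Sect 𝔤 C σ ε k ψ →
      (∫ x, (if L ≤ ‖x‖ then 1 / ‖x‖ ^ 2 else 0) * ‖ψ x‖ ^ 2 ≤
        K * ((∫ x, ‖Qe 𝔤 C σ ε ψ x‖ ^ 2) +
          L ^ (-(5 / 2) : ℝ) * ∫ x in Metric.closedBall 0 R, ‖ψ x‖ ^ 2)) ∧
      ∫ x, (1 / (1 + ‖x‖ ^ 2) + ε) * ‖ψ x‖ ^ 2 ≤
        K * ((∫ x, ‖Qe 𝔤 C σ ε ψ x‖ ^ 2) + ∫ x in Metric.closedBall 0 R, ‖ψ x‖ ^ 2) := by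
  obtain ⟨R, ε₀, c, hε₀, hc, h⟩ := h
  obtain ⟨r, hr1, hrR⟩ : ∃ r : ℝ, 1 ≤ r ∧ R ≤ r := ⟨max 1 R, le_max_left _ _, le_max_right _ _⟩
  have hr : 0 < r := one_pos.trans_le hr1
  obtain ⟨B, hB, hw⟩ := hb_weight (Y := X E) hr
  obtain ⟨K₀, hK₀, hK₁⟩ : ∃ K₀ : ℝ, 128 ≤ K₀ ∧ 1 ≤ K₀ * c :=
    ⟨128 + 1 / c, le_add_of_nonneg_right (by positivity), by
      rw [add_mul, one_div_mul_cancel hc.ne']; exact le_add_of_nonneg_left (by positivity)⟩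
  have hK : 0 < K₀ := by linarith
  refine ⟨11 * K₀ + (K₀ * B + 4) * (2 * r) ^ 4 + (K₀ * B + (1 + ε₀)), 2 * r, ε₀, by positivity,
    by positivity, hε₀, fun ε k L hε hε' hL ψ hψ => ?_⟩
  have h' := fun ψ hψ (h0 : ∀ x, ‖x‖ ≤ r → ψ x = 0) => h ε k hε hε' ψ hψ fun x hx => h0 x (hx.trans hrR)
  have p1 : 0 ≤ ∫ x, ‖Qe 𝔤 C σ ε ψ x‖ ^ 2 := integral_nonneg fun _ => sq_nonneg _
  have p2 : 0 ≤ ∫ x in Metric.closedBall 0 (2 * r), ‖ψ x‖ ^ 2 := integral_nonneg fun _ => sq_nonneg _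
  have p3 : 0 < L ^ (-(5 / 2) : ℝ) := Real.rpow_pos_of_pos (by linarith) _
  have p4 : 0 ≤ (K₀ * B + 4) * (2 * r) ^ 4 := by positivity
  have p5 : 0 ≤ K₀ * B + (1 + ε₀) := by positivity
  constructor
  · obtain ⟨ϖ, o1, o2, o3, o4, o5, o6⟩ := hb_omega (Y := X E) hL
    obtain ⟨g, g1, g2, g3, g4, g5, g6⟩ := hw ϖ _ o1 o2 o3 o4 (o5 (2 * r) (by linarith))
    refine (hb_main 𝔤 C σ hr hψ h' (by positivity) g1 g2 g3 g5 g6
      hK.le (A' := 4 * ((2 * r) ^ 4 * L ^ (-(5 / 2) : ℝ))) (fun x => by positivity)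
      fun x => ?_).trans ?_
    · have q1 : 0 ≤ 1 / ‖x‖ ^ 2 * g x ^ 2 := by positivity
      have q2 : 0 ≤ K₀ * (c * ε * g x ^ 2) := by positivity
      have q3 := Set.indicator_nonneg (s := Metric.closedBall (0 : X E) (2 * r))
        (f := fun _ => 4 * ((2 * r) ^ 4 * L ^ (-(5 / 2) : ℝ))) (fun _ _ => by positivity) x
      split_ifs with hx
      swap
      · positivity
      rcases le_total ‖x‖ (2 * r) with hx' | hx'
      · rw [Set.indicator_of_mem (mem_closedBall_zero_iff.2 hx')]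
        have q4 : 1 / ‖x‖ ^ 2 ≤ 1 := by
          rw [div_le_one (by nlinarith)]; nlinarith
        nlinarith [o5 (2 * r) (by linarith) x hx', o6 x hx]
      · have q4 := mul_le_mul_of_nonneg_left (o6 x hx) (show 0 ≤ 1 / ‖x‖ ^ 2 by positivity)
        rw [← g4 x hx'] at q4
        nlinarith
    · nlinarith [mul_nonneg p3.le p2, mul_nonneg p4 p1, mul_nonneg p5 p1,
        mul_nonneg p5 (mul_nonneg p3.le p2), mul_nonneg hK.le (mul_nonneg p3.le p2)]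
  · obtain ⟨g, g1, g2, g3, g4, g5, g6⟩ := hw (fun _ => 1) 1 contDiffOn_const
      (fun _ => ⟨zero_le_one, le_rfl⟩) (fun _ _ _ => rfl) (fun x _ => by simp; positivity) (by simp)
    refine (hb_main 𝔤 C σ hr hψ h' (by positivity) g1 g2 g3 g5 g6
      hK.le (A' := 1 + ε₀) (fun x => by positivity) fun x => ?_).trans ?_
    · rcases le_total ‖x‖ (2 * r) with hx' | hx'
      · rw [Set.indicator_of_mem (mem_closedBall_zero_iff.2 hx')]
        have q4 : 1 / (1 + ‖x‖ ^ 2) ≤ 1 := by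
          rw [div_le_one (by positivity)]; nlinarith
        have q1 : 0 ≤ K₀ * (1 / 32 * (1 / ‖x‖ ^ 2 * g x ^ 2) + c * ε * g x ^ 2) := by positivity
        linarith
      · have q3 := Set.indicator_nonneg (s := Metric.closedBall (0 : X E) (2 * r))
          (f := fun _ => 1 + ε₀) (fun _ _ => by positivity) x
        have q4 : 1 / (1 + ‖x‖ ^ 2) ≤ 1 / ‖x‖ ^ 2 :=
          one_div_le_one_div_of_le (by nlinarith) (by linarith)
        have q1 : 0 ≤ 1 / ‖x‖ ^ 2 := by positivity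
        rw [g4 x hx']
        nlinarith
    · nlinarith [mul_nonneg p4 p1, mul_nonneg p5 p1, mul_nonneg p4 p2, mul_nonneg hK.le p2]

theorem tailIneq_of_hinf (h : Hinf 𝔤 C σ) : TailIneq 𝔤 C σ := by
  obtain ⟨K, R, ε₀, hK, hR, hε₀, h⟩ := tail_ball 𝔤 C σ h
  obtain ⟨b, hb, hχ⟩ := exists_radial_cutoff (Y := X E)
  refine ⟨K * (132 + b ^ 2) + 1, by positivity, fun ε L hε hε1 hL ψ hψ => ?_⟩
  have hC := hψ.1
  have i0 := fae_int_sq hC.memLp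
  have i3 := fae_int_sq (hb_core 𝔤 C σ ε hC).memLp
  have p1 : 0 ≤ ∫ x, ‖Qe 𝔤 C σ ε ψ x‖ ^ 2 := integral_nonneg fun _ => sq_nonneg _
  have p2 : 0 ≤ ∫ x, ‖ψ x‖ ^ 2 := integral_nonneg fun _ => sq_nonneg _
  have p3 : 0 < L ^ (-(5 / 2) : ℝ) := Real.rpow_pos_of_pos (by linarith) _
  have p4 : 0 ≤ K * (128 + b ^ 2) + 1 := by positivity
  have key : ∀ φ, Sect 𝔤 C σ 0 0 φ → ∫ x, (if L ≤ ‖x‖ then 1 / ‖x‖ ^ 2 else 0) * ‖φ x‖ ^ 2 ≤
      K * ((∫ x, ‖Qe 𝔤 C σ 0 φ x‖ ^ 2) + L ^ (-(5 / 2) : ℝ) * ∫ x, ‖φ x‖ ^ 2) := fun φ hφ => by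
    refine (h 0 0 L le_rfl hε₀.le hL φ hφ).1.trans ?_
    have := setIntegral_le_integral (s := Metric.closedBall 0 R) (fae_int_sq hφ.1.1.memLp)
      (Eventually.of_forall fun _ => sq_nonneg _)
    exact mul_le_mul_of_nonneg_left (add_le_add le_rfl (mul_le_mul_of_nonneg_left this p3.le)) hK.le
  rcases hε.eq_or_lt with rfl | hε
  · refine (key ψ ⟨hψ, Or.inl rfl⟩).trans ?_
    rw [zero_add]
    exact mul_le_mul_of_nonneg_right (by nlinarith) (by positivity)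
  obtain ⟨r, hr, hrε⟩ : ∃ r : ℝ, 0 < r ∧ ε * r ^ 2 = 1 :=
    ⟨√(1 / ε), by positivity, by rw [Real.sq_sqrt (by positivity), mul_one_div_cancel hε.ne']⟩
  obtain ⟨χ, c1, -, c2, c3, c4, c5, -, c7⟩ := hχ r hr
  have hs := hb_sect 𝔤 C σ (ε := 0) (k := 0) ⟨hψ, Or.inl rfl⟩ c1 c7
  have c8 : ∀ x, χ x ^ 2 ≤ 1 := fun x => pow_le_one₀ (c2 x).1 (c2 x).2
  have e0 : ∀ x, ‖(χ x : ℂ) • ψ x‖ ^ 2 = χ x ^ 2 * ‖ψ x‖ ^ 2 := fun x => by
    simp only [norm_smul, Complex.norm_real, Real.norm_eq_abs, mul_pow, sq_abs]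
  have b1 := key _ hs
  have b2 : ∫ x, ‖(χ x : ℂ) • ψ x‖ ^ 2 ≤ ∫ x, ‖ψ x‖ ^ 2 :=
    integral_mono (fae_int_sq hs.1.1.memLp) i0 fun x => by
      simp only [e0]
      exact mul_le_of_le_one_left (sq_nonneg _) (c8 x)
  have b3 : ∫ x, (if L ≤ ‖x‖ then 1 / ‖x‖ ^ 2 else 0) * ‖ψ x‖ ^ 2 ≤
      (∫ x, (if L ≤ ‖x‖ then 1 / ‖x‖ ^ 2 else 0) * ‖(χ x : ℂ) • ψ x‖ ^ 2) + ε * ∫ x, ‖ψ x‖ ^ 2 := by
    have i1 : Integrable fun x => (if L ≤ ‖x‖ then 1 / ‖x‖ ^ 2 else 0) * ‖(χ x : ℂ) • ψ x‖ ^ 2 :=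
      hb_int hs.1.1 (Measurable.ite (measurableSet_le measurable_const measurable_norm) (by fun_prop)
        measurable_const) 1 fun x => by
        split_ifs with hx
        · rw [abs_of_nonneg (by positivity), div_le_one (by nlinarith)]; nlinarith
        · simp
    rw [← integral_const_mul, ← integral_add i1 (i0.const_mul _)]
    refine integral_mono_of_nonneg (Eventually.of_forall fun x => by positivity)
      (i1.add (i0.const_mul _)) (Eventually.of_forall fun x => ?_)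
    simp only [e0]
    rcases le_total ‖x‖ r with hx | hx
    · rw [c3 x hx, one_pow, one_mul]
      exact le_add_of_nonneg_right (by positivity)
    · refine le_add_of_nonneg_of_le (by positivity) (mul_le_mul_of_nonneg_right ?_ (sq_nonneg _))
      split_ifs
      · rw [div_le_iff₀ (by nlinarith), ← hrε]; gcongr
      · exact hε.le
  have b4 : ∫ x, ‖Qe 𝔤 C σ 0 (fun y => (χ y : ℂ) • ψ y) x‖ ^ 2 ≤
      4 * (∫ x, ‖Qe 𝔤 C σ ε ψ x‖ ^ 2) + (128 + b ^ 2) * ε * ∫ x, ‖ψ x‖ ^ 2 := by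
    rw [← integral_const_mul, ← integral_const_mul, ← integral_add (i3.const_mul _) (i0.const_mul _)]
    refine integral_mono (fae_int_sq (hb_core 𝔤 C σ 0 hs.1.1).memLp)
      ((i3.const_mul _).add (i0.const_mul _)) fun x => ?_
    have hd := dirac_smul C (cmap σ.G σ.s) (wd 𝔤 σ 0 fun _ => 0) (x := x)
      (c1.differentiable (by simp) x) (hC.1.differentiable (by simp) x)
    have e1 : Qe 𝔤 C σ ε ψ x = dirac C (cmap σ.G σ.s) (wd 𝔤 σ 0 fun _ => 0) ψ x +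
        C.θ (ε • cmap σ.G σ.s (mat V0 x)) (ψ x) := by
      rw [← dirac_add_pot C _ _ fun x => ε • cmap σ.G σ.s (mat V0 x)]
      unfold Qe Qd
      congr 1
      funext y
      simp only [wd, zero_smul, add_zero]
      abel
    rw [← sub_eq_iff_eq_add] at e1
    rw [← e1, smul_sub] at hd
    have a1 := fae_sub_sq ((χ x : ℂ) • Qe 𝔤 C σ ε ψ x)
      ((χ x : ℂ) • C.θ (ε • cmap σ.G σ.s (mat V0 x)) (ψ x))
    refine (congrArg (‖·‖ ^ 2) hd).trans_le ((fae_sub_sq _ _).trans ?_)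
    simp only [norm_smul, Complex.norm_real, Real.norm_eq_abs, mul_pow, sq_abs, Complex.norm_I,
      one_mul, C.norm_θ_sq, norm_cmap _ σ.unit] at a1 ⊢
    have a2 := mul_le_mul_of_nonneg_right (c8 x) (sq_nonneg ‖Qe 𝔤 C σ ε ψ x‖)
    have a3 : ‖gradient χ x‖ ^ 2 ≤ b ^ 2 * ε := by
      refine (pow_le_pow_left₀ (norm_nonneg _) (c5 x) 2).trans_eq ?_
      rw [div_pow, div_eq_iff (by positivity), mul_assoc, hrε, mul_one]
    have a4 : χ x ^ 2 * (ε ^ 2 * ‖mat V0 x‖ ^ 2) ≤ 64 * ε := by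
      rcases le_total ‖x‖ (2 * r) with hx | hx
      · calc _ ≤ 1 * (ε ^ 2 * (4 * (2 * r)) ^ 2) := by
              gcongr
              · exact c8 x
              · exact (norm_V0_le x).trans (by linarith)
          _ = 64 * ε * (ε * r ^ 2) := by ring
          _ = _ := by rw [hrε, mul_one]
      · rw [c4 x hx]; simp; positivity
    have a5 := mul_le_mul_of_nonneg_right a3 (sq_nonneg ‖ψ x‖)
    have a6 := mul_le_mul_of_nonneg_right a4 (sq_nonneg ‖ψ x‖)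
    linarith
  have b5 := mul_le_mul_of_nonneg_left (add_le_add b4 (mul_le_mul_of_nonneg_left b2 p3.le)) hK.le
  nlinarith [mul_nonneg p4 p1, mul_nonneg hK.le (mul_nonneg hε.le p2),
    mul_nonneg p4 (mul_nonneg p3.le p2), mul_nonneg hK.le (mul_nonneg p3.le p2)]

end Crest.Agent.R330

end
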