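import Crest.Agent.R330.H.A
import Crest.Agent.R330.H.B

/-! # Row 330, H/C (statements frozen; see `R330/Blueprint.lean`) -/

set_option autoImplicit false
set_option linter.unusedSectionVars false

noncomputable section

open MeasureTheory Filter Topology
open scoped InnerProductSpace ContDiff Matrix
open Crest.MathPhysics.MatrixQM (GammaNine)

namespace Crest.Agent.R330

variable {E F : Type} [NormedAddCommGroup E] [InnerProductSpace ℝ E] [FiniteDimensional ℝ E]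
  [MeasurableSpace E] [BorelSpace E]
  [NormedAddCommGroup F] [InnerProductSpace ℂ F] [FiniteDimensional ℂ F]
  (𝔤 : Lie E) (C : Cl (Th E) F) (σ : Spn)

theorem hc_alg {a₁ a₂ e b₁ b₂ β q m A B : ℝ} (hb₂ : 0 < b₂) (hA0 : 0 ≤ A) (hB0 : 0 ≤ B) (hm : 0 ≤ m)
    (hA : A ≤ a₁ * q + a₂ * m + e * B) (hB : B ≤ b₁ * q + b₂ * m) (h : 2 * m ≤ β * √A * √B)
    (h1 : (β * b₂) ^ 2 * a₂ ≤ b₂) (h2 : (β * b₂) ^ 2 * e ≤ 1) :
    b₂ * m ≤ ((β * b₂) ^ 2 * a₁ + 2 * b₁) * q := by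
  have k1 := sq_nonneg (β * b₂ * √A - √B)
  rw [sub_sq, mul_pow, Real.sq_sqrt hA0, Real.sq_sqrt hB0] at k1
  have k2 := mul_le_mul_of_nonneg_left h hb₂.le
  have k3 := mul_le_mul_of_nonneg_left hA (sq_nonneg (β * b₂))
  have k4 := mul_le_mul_of_nonneg_right h1 hm
  have k5 := mul_le_mul_of_nonneg_right h2 hB0
  linarith

theorem hc_int {ψ : X E → F} (hψ : Core ψ) {L : ℝ} (hL : 1 ≤ L) :
    Integrable fun x => (if L ≤ ‖x‖ then 1 / ‖x‖ ^ 2 else 0) * ‖ψ x‖ ^ 2 := by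
  refine (F_sq hψ).bdd_mul (c := 1) (Measurable.ite (measurableSet_le measurable_const measurable_norm)
    (by fun_prop) measurable_const).aestronglyMeasurable (Eventually.of_forall fun x => ?_)
  split_ifs with h
  · rw [Real.norm_of_nonneg (by positivity), div_le_one (by nlinarith)]
    nlinarith
  · simp

theorem hc_int' {ψ : X E → F} (hψ : Core ψ) {w : X E → ℝ} (hw : Continuous w) :
    Integrable fun x => w x * ‖ψ x‖ ^ 2 := by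
  refine (hw.mul (hψ.1.continuous.norm.pow 2)).integrable_of_hasCompactSupport ?_
  exact hψ.2.mono fun x hx h => hx (by simp [h])

theorem hc_pt (ε : ℝ) {ψ : X E → F} (hψ : Core ψ) {χ : X E → ℝ} (hχ : ContDiff ℝ ∞ χ) (x : X E)
    (h01 : 0 ≤ χ x ∧ χ x ≤ 1) : ‖Qe 𝔤 C σ 0 (fun y => (χ y : ℂ) • ψ y) x‖ ^ 2 ≤
      3 * ‖Qe 𝔤 C σ ε ψ x‖ ^ 2 + 3 * (‖gradient χ x‖ ^ 2 * ‖ψ x‖ ^ 2) +
        48 * ε ^ 2 * (‖x‖ ^ 2 * ‖(χ x : ℂ) • ψ x‖ ^ 2) := by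
  have e0 : wd 𝔤 σ 0 (fun _ => 0) = fun y => wd 𝔤 σ ε (fun _ => 0) y + (-ε) • cmap σ.G σ.s (mat V0 y) := by
    funext y
    simp only [wd, zero_smul, neg_smul]
    abel
  have e1 : Qe 𝔤 C σ 0 (fun y => (χ y : ℂ) • ψ y) x = (χ x : ℂ) • Qe 𝔤 C σ ε ψ x -
      Complex.I • C.θ (cmap σ.G σ.s (gradient χ x)) (ψ x) +
      C.θ ((-ε) • cmap σ.G σ.s (mat V0 x)) ((χ x : ℂ) • ψ x) := by
    rw [Qe, Qd, e0, dirac_add_pot, dirac_smul C _ _ (hχ.differentiable (by simp) x)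
      (hψ.1.differentiable (by simp) x)]
    rfl
  have n1 : ‖(χ x : ℂ) • Qe 𝔤 C σ ε ψ x‖ ≤ ‖Qe 𝔤 C σ ε ψ x‖ := by
    rw [norm_smul, Complex.norm_real, Real.norm_of_nonneg h01.1]
    exact mul_le_of_le_one_left (norm_nonneg _) h01.2
  have n2 : ‖Complex.I • C.θ (cmap σ.G σ.s (gradient χ x)) (ψ x)‖ ≤ ‖gradient χ x‖ * ‖ψ x‖ := by
    rw [norm_smul, Complex.norm_I, one_mul, ← norm_cmap σ.G σ.unit (gradient χ x)]
    exact C.norm_θ_le _ _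
  have n3 : ‖C.θ ((-ε) • cmap σ.G σ.s (mat V0 x)) ((χ x : ℂ) • ψ x)‖ ≤
      4 * |ε| * (‖x‖ * ‖(χ x : ℂ) • ψ x‖) := by
    refine (C.norm_θ_le _ _).trans ?_
    rw [norm_smul, norm_cmap σ.G σ.unit, norm_neg, Real.norm_eq_abs]
    have := mul_le_mul_of_nonneg_right (mul_le_mul_of_nonneg_left (norm_V0_le x) (abs_nonneg ε))
      (norm_nonneg ((χ x : ℂ) • ψ x))
    linarith
  have n4 : ‖Qe 𝔤 C σ 0 (fun y => (χ y : ℂ) • ψ y) x‖ ≤ ‖Qe 𝔤 C σ ε ψ x‖ + ‖gradient χ x‖ * ‖ψ x‖ +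
      4 * |ε| * (‖x‖ * ‖(χ x : ℂ) • ψ x‖) := by
    rw [e1]
    exact (norm_add_le _ _).trans (add_le_add ((norm_sub_le _ _).trans (add_le_add n1 n2)) n3)
  refine (pow_le_pow_left₀ (norm_nonneg _) n4 2).trans ?_
  rw [← sq_abs ε, ← mul_pow, ← mul_pow]
  generalize ‖Qe 𝔤 C σ ε ψ x‖ = a
  generalize ‖gradient χ x‖ * ‖ψ x‖ = b
  generalize ‖x‖ * ‖(χ x : ℂ) • ψ x‖ = c
  nlinarith [sq_nonneg (a - b), sq_nonneg (a - 4 * |ε| * c), sq_nonneg (b - 4 * |ε| * c)]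

theorem hc_rpow {s : ℝ} (hs : 0 < s) (n m : ℕ) (h : 5 * n = 2 * m) :
    (s ^ n) ^ (-(5 / 2) : ℝ) = (s ^ m)⁻¹ := by
  have h' : (5 : ℝ) * n = 2 * m := by exact_mod_cast h
  rw [← Real.rpow_natCast, ← Real.rpow_mul hs.le, ← Real.rpow_natCast, ← Real.rpow_neg hs.le]
  congr 1
  linarith

theorem hc_core (h : Hinf 𝔤 C σ) {V : Matrix (Fin 9) (Fin 9) ℝ} (hV : Vᵀ = -V) :
    ∃ c ε₁ : ℝ, 0 < c ∧ 0 < ε₁ ∧ ∀ ε k t : ℝ, 0 ≤ ε → ε ≤ ε₁ → |t| ≤ 2 * Real.pi → ∀ ψ, Sect 𝔤 C σ ε k ψ →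
      (∀ x, NormedSpace.exp ((t : ℂ) • C.S (mat (sig σ.G V))) (ψ (rexp' ((-t) • mat V) x)) = -ψ x) →
      c * ∫ x, (1 / (1 + ‖x‖ ^ 2) + ε) * ‖ψ x‖ ^ 2 ≤ ∫ x, ‖Qe 𝔤 C σ ε ψ x‖ ^ 2 := by
  obtain ⟨K, R, ε₀, hK, hR, hε₀, hT⟩ := tail_ball 𝔤 C σ h
  obtain ⟨b₀, hb₀, hH⟩ := hh_ineq 𝔤 C σ hV
  obtain ⟨b, hb, hχ⟩ := exists_radial_cutoff (Y := X E)
  obtain ⟨β, hβ⟩ : ∃ β, β = b₀ * (2 * Real.pi) := ⟨_, rfl⟩
  have hβ0 : 0 < β := by rw [hβ]; positivity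
  obtain ⟨s, hs⟩ : ∃ s, s = 1 + R + 216 * β ^ 2 * K ^ 2 * b ^ 2 := ⟨_, rfl⟩
  have hs0 : 0 ≤ 216 * β ^ 2 * K ^ 2 * b ^ 2 := by positivity
  have hs1 : 1 ≤ s := by linarith
  have hs2 : 0 < s := by linarith
  have hsR : R ≤ s ^ 26 := (by linarith : R ≤ s).trans (le_self_pow₀ hs1 (by norm_num))
  obtain ⟨χ, c1, c2, c3, c4, c5, c6, c7, c8⟩ := hχ (s ^ 26) (by positivity)
  have hs3 : 216 * β ^ 2 * K ^ 2 * b ^ 2 ≤ s := by linarith
  clear hs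
  obtain ⟨b₂, hb₂⟩ : ∃ b₂, b₂ = 18 * K * s ^ 64 := ⟨_, rfl⟩
  have hb₂0 : 0 < b₂ := by rw [hb₂]; positivity
  obtain ⟨D, hD⟩ : ∃ D, D = ((β * b₂) ^ 2 * (3 + 12 * b ^ 2 * K) + 2 * (18 * K * s ^ 104)) / b₂ := ⟨_, rfl⟩
  have hD0 : 0 ≤ D := by rw [hD]; positivity
  refine ⟨(K * (1 + D))⁻¹, min ε₀ (7 * (β * b₂))⁻¹, by positivity, by positivity,
    fun ε k t h0 h1 ht ψ hψ hU => ?_⟩
  have hc : Core ψ := hψ.1.1
  have T1 := (hT ε k (s ^ 26) h0 (h1.trans (min_le_left _ _)) (one_le_pow₀ hs1) ψ hψ).1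
  obtain ⟨T2, T3⟩ := hT ε k (s ^ 16) h0 (h1.trans (min_le_left _ _)) (one_le_pow₀ hs1) ψ hψ
  rw [hc_rpow hs2 26 65 rfl] at T1
  rw [hc_rpow hs2 16 40 rfl] at T2
  set q := ∫ x, ‖Qe 𝔤 C σ ε ψ x‖ ^ 2 with hq
  set m := ∫ x in Metric.closedBall 0 R, ‖ψ x‖ ^ 2 with hm
  have hq0 : 0 ≤ q := integral_nonneg fun x => sq_nonneg _
  have hm0 : 0 ≤ m := integral_nonneg fun x => sq_nonneg _
  set φ : X E → F := fun y => (χ y : ℂ) • ψ y with hφ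
  have hφc : Cls 𝔤 C σ.G ∅ φ := (cls_iff_ds 𝔤 C σ.G ∅ φ).2
    (((cls_iff_ds 𝔤 C σ.G ∅ ψ).1 hψ.1).smul c1 (invS_radial 𝔤 C σ.G (fun _ hp => hp.elim) c8))
  have H := hH t φ hφc
  have e : ∀ x, ⟪φ x, NormedSpace.exp ((t : ℂ) • C.S (mat (sig σ.G V)))
      (φ (rexp' ((-t) • mat V) x))⟫_ℂ = -((‖φ x‖ ^ 2 : ℝ) : ℂ) := fun x => by
    have : NormedSpace.exp ((t : ℂ) • C.S (mat (sig σ.G V))) (φ (rexp' ((-t) • mat V) x)) = -φ x := by
      simp only [hφ]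
      rw [map_smul, hU, c8 _ x (norm_rexp' (ga_skew_smul (isSkew_mat hV) _) x), smul_neg]
    rw [this, inner_neg_right, inner_self_eq_norm_sq_to_K]
    simp
  simp only [e] at H
  rw [integral_neg, integral_complex_ofReal] at H
  set N := ∫ x, ‖φ x‖ ^ 2 with hN
  set A := ∫ x, ‖Qe 𝔤 C σ 0 φ x‖ ^ 2 with hA
  set B := ∫ x, ‖x‖ ^ 2 * ‖φ x‖ ^ 2 with hB
  have hN0 : 0 ≤ N := integral_nonneg fun x => sq_nonneg _
  have hA0 : 0 ≤ A := integral_nonneg fun x => sq_nonneg _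
  have hB0 : 0 ≤ B := integral_nonneg fun x => by positivity
  have hmN : m ≤ N := by
    refine le_trans (le_of_eq (setIntegral_congr_fun measurableSet_closedBall fun x hx => ?_))
      (setIntegral_le_integral (F_sq hφc.1) (Eventually.of_forall fun x => sq_nonneg _))
    simp only [hφ]
    rw [c4 x ((mem_closedBall_zero_iff.1 hx).trans hsR), Complex.ofReal_one, one_smul]
  have H' : 2 * m ≤ β * √A * √B := by
    have e2 : ‖-(N : ℂ) - N‖ = 2 * N := by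
      rw [← Complex.ofReal_neg, ← Complex.ofReal_sub, Complex.norm_real, Real.norm_of_nonpos (by linarith)]
      ring
    rw [e2] at H
    refine (by linarith : 2 * m ≤ 2 * N).trans (H.trans ?_)
    rw [hβ]
    gcongr
  have iq : Integrable fun x => ‖Qe 𝔤 C σ ε ψ x‖ ^ 2 := F_sq (hc.dirac C (cmap σ.G σ.s) (contDiff_wd 𝔤 σ ε (f := fun _ => 0) contDiff_const))
  have i1 := hc_int hc (one_le_pow₀ hs1 : 1 ≤ s ^ 26)
  have i2 := hc_int hc (one_le_pow₀ hs1 : 1 ≤ s ^ 16)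
  have i3 := hc_int' hc (w := fun x => 1 / (1 + ‖x‖ ^ 2) + ε)
    ((continuous_const.div (by fun_prop) fun x => by positivity).add continuous_const)
  have i4 := hc_int' hφc.1 (w := fun x => ‖x‖ ^ 2) (by fun_prop)
  have bA : A ≤ 3 * q + 12 * b ^ 2 * (∫ x, (if s ^ 26 ≤ ‖x‖ then 1 / ‖x‖ ^ 2 else 0) * ‖ψ x‖ ^ 2) +
      48 * ε ^ 2 * B := by
    rw [hq, hB, ← integral_const_mul, ← integral_const_mul, ← integral_const_mul,
      ← integral_add (iq.const_mul _) (i1.const_mul _),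
      ← integral_add (by exact (iq.const_mul _).add (i1.const_mul _)) (i4.const_mul _)]
    refine integral_mono_of_nonneg (Eventually.of_forall fun x => sq_nonneg _)
      (((iq.const_mul _).add (i1.const_mul _)).add (i4.const_mul _)) (Eventually.of_forall fun x => ?_)
    refine (hc_pt 𝔤 C σ ε hc c1 x (c3 x)).trans ?_
    have g : ‖gradient χ x‖ ^ 2 ≤ 4 * b ^ 2 * (if s ^ 26 ≤ ‖x‖ then 1 / ‖x‖ ^ 2 else 0) := by
      by_cases h2 : ‖x‖ < s ^ 26 ∨ 2 * s ^ 26 < ‖x‖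
      · rw [c7 x h2, norm_zero, zero_pow two_ne_zero]
        split_ifs <;> positivity
      · push Not at h2
        have p : 0 < ‖x‖ := (by positivity : 0 < s ^ 26).trans_le h2.1
        rw [if_pos h2.1]
        refine (pow_le_pow_left₀ (norm_nonneg _) ((c6 x).trans (?_ : _ ≤ 2 * b / ‖x‖)) 2).trans
          (le_of_eq (by ring))
        rw [div_le_div_iff₀ (by positivity) p]
        nlinarith
    have := mul_le_mul_of_nonneg_right g (sq_nonneg ‖ψ x‖)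
    change _ ≤ 3 * ‖Qe 𝔤 C σ ε ψ x‖ ^ 2 + _ + _
    linarith
  have bB : B ≤ 2 * s ^ 64 * (∫ x, (1 / (1 + ‖x‖ ^ 2) + ε) * ‖ψ x‖ ^ 2) +
      16 * s ^ 104 * ∫ x, (if s ^ 16 ≤ ‖x‖ then 1 / ‖x‖ ^ 2 else 0) * ‖ψ x‖ ^ 2 := by
    rw [← integral_const_mul, ← integral_const_mul, ← integral_add (i3.const_mul _) (i2.const_mul _)]
    refine integral_mono_of_nonneg (Eventually.of_forall fun x => by positivity)
      ((i3.const_mul _).add (i2.const_mul _)) (Eventually.of_forall fun x => ?_)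
    have g : ‖x‖ ^ 2 * χ x ^ 2 ≤ 2 * s ^ 64 * (1 / (1 + ‖x‖ ^ 2) + ε) +
        16 * s ^ 104 * (if s ^ 16 ≤ ‖x‖ then 1 / ‖x‖ ^ 2 else 0) := by
      have g0 : ‖x‖ ^ 2 * χ x ^ 2 ≤ ‖x‖ ^ 2 :=
        mul_le_of_le_one_right (sq_nonneg _) (pow_le_one₀ (c3 x).1 (c3 x).2)
      split_ifs with h2
      · have p : 0 < ‖x‖ := (by positivity : 0 < s ^ 16).trans_le h2
        rcases le_total (2 * s ^ 26) ‖x‖ with h3 | h3
        · rw [c5 x h3, zero_pow two_ne_zero, mul_zero]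
          positivity
        · refine g0.trans (le_add_of_nonneg_of_le (by positivity) ?_)
          rw [mul_one_div, le_div_iff₀ (by positivity)]
          exact (le_of_eq (by ring)).trans ((pow_le_pow_left₀ p.le h3 4).trans (le_of_eq (by ring)))
      · rw [mul_zero, add_zero]
        refine g0.trans (le_trans ?_ (mul_le_mul_of_nonneg_left (le_add_of_nonneg_right h0) (by positivity)))
        rw [mul_one_div, le_div_iff₀ (by positivity)]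
        have g1 : ‖x‖ ^ 2 ≤ s ^ 32 :=
          (pow_le_pow_left₀ (norm_nonneg _) (not_le.1 h2).le 2).trans (le_of_eq (by ring))
        have g2 : (1 : ℝ) ≤ s ^ 32 := one_le_pow₀ hs1
        calc _ ≤ s ^ 32 * (s ^ 32 + s ^ 32) := by gcongr
          _ = _ := by ring
    have := mul_le_mul_of_nonneg_right g (sq_nonneg ‖ψ x‖)
    simp only [hφ, norm_smul, Complex.norm_real, Real.norm_eq_abs, mul_pow, sq_abs]
    linarith
  have bA' : A ≤ (3 + 12 * b ^ 2 * K) * q + 12 * b ^ 2 * K * (s ^ 65)⁻¹ * m + 48 * ε ^ 2 * B := by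
    have := mul_le_mul_of_nonneg_left T1 (by positivity : 0 ≤ 12 * b ^ 2)
    linarith
  have bB' : B ≤ 18 * K * s ^ 104 * q + b₂ * m := by
    have k1 := mul_le_mul_of_nonneg_left T2 (by positivity : 0 ≤ 16 * s ^ 104)
    have k2 := mul_le_mul_of_nonneg_left T3 (by positivity : 0 ≤ 2 * s ^ 64)
    have k3 : s ^ 104 * (s ^ 40)⁻¹ = s ^ 64 := by field_simp
    have k4 : s ^ 64 * (K * q) ≤ s ^ 104 * (K * q) :=
      mul_le_mul_of_nonneg_right (pow_le_pow_right₀ hs1 (by norm_num)) (by positivity)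
    have k5 : 16 * s ^ 104 * (K * (q + (s ^ 40)⁻¹ * m)) = 16 * s ^ 104 * (K * q) + 16 * K * s ^ 64 * m := by
      rw [← k3]; ring
    rw [hb₂]
    linarith
  have fin := hc_alg hb₂0 hA0 hB0 hm0 bA' bB' H' (by
    have k1 : (β * b₂) ^ 2 * (12 * b ^ 2 * K * (s ^ 65)⁻¹) = b₂ * (216 * β ^ 2 * K ^ 2 * b ^ 2 / s) := by
      rw [hb₂]; field_simp; norm_num
    rw [k1]
    exact mul_le_of_le_one_right hb₂0.le ((div_le_one hs2).2 hs3)) (by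
    have k1 : 7 * (β * b₂) * ε ≤ 1 := by
      rw [← le_div_iff₀' (by positivity), one_div]
      exact h1.trans (min_le_right _ _)
    have k2 := pow_le_one₀ (by positivity) k1 (n := 2)
    nlinarith [sq_nonneg (β * b₂ * ε)])
  have fin' : m ≤ D * q := by
    rw [hD, div_mul_eq_mul_div, le_div_iff₀' hb₂0]
    exact fin
  rw [inv_mul_le_iff₀ (by positivity)]
  refine T3.trans ?_
  rw [mul_assoc]
  exact mul_le_mul_of_nonneg_left (by linarith) hK.le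

theorem gapIneq_of_hinf (h : Hinf 𝔤 C σ) : GapIneq 𝔤 C σ := by
  obtain ⟨c, ε₁, hc, hε, H⟩ := hc_core 𝔤 C σ h V0_skew
  refine ⟨c, ε₁, hc, hε, fun ε k h0 h1 hk ψ hψ => ?_⟩
  have hr : ∀ x, RotAt C σ.G V0 k ψ x := hψ.2.2 (V0, k) rfl
  have hk0 : 0 < k := by linarith
  refine H ε k (Real.pi / k) h0 h1 ?_ ψ ⟨⟨hψ.1, hψ.2.1, fun _ hp => hp.elim⟩, Or.inr ⟨hk0.le, hr⟩⟩ fun x => ?_
  · rw [abs_of_pos (by positivity)]
    linarith [div_le_self Real.pi_pos.le hk, Real.pi_pos]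
  · rw [(wtAt_iff_flow _ _ _ (hψ.1.1.differentiable (by simp))).1 hr]
    let : NormedAlgebra ℚ (F →L[ℂ] F) := NormedAlgebra.restrictScalars ℚ ℂ _
    have e : ((-(Real.pi / k) : ℝ) : ℂ) • (C.S (mat (sig σ.G V0)) + ((k : ℂ) * Complex.I) • 1) =
        -(((Real.pi / k : ℝ) : ℂ) • C.S (mat (sig σ.G V0))) +
          algebraMap ℂ (F →L[ℂ] F) (-(Real.pi * Complex.I)) := by
      rw [smul_add, smul_smul, Algebra.algebraMap_eq_smul_one, ← neg_smul]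
      have : (k : ℂ) ≠ 0 := by exact_mod_cast hk0.ne'
      congr 2
      · push_cast; rfl
      · push_cast; field_simp
    rw [e, NormedSpace.exp_add_of_commute (Algebra.commute_algebraMap_right _ _),
      ← NormedSpace.algebraMap_exp_comm, ← Complex.exp_eq_exp_ℂ, Complex.exp_neg_pi_mul_I,
      ← mul_apply_eq_comp, ← mul_assoc, Cl.bb_exp_add]
    simp

/-- Hardy inequality and `ε`-gap in the odd neutral sector. -/
theorem gap_odd (h : Hinf 𝔤 C σ) : ∃ c ε₁ : ℝ, 0 < c ∧ 0 < ε₁ ∧ ∀ ε : ℝ, 0 ≤ ε → ε ≤ ε₁ →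
    ∀ ψ, DS (withPar (flows 𝔤 C σ.G neut) (-par C σ.G)) ψ →
      c * ∫ x, (1 / (1 + ‖x‖ ^ 2) + ε) * ‖ψ x‖ ^ 2 ≤ ∫ x, ‖Qe 𝔤 C σ ε ψ x‖ ^ 2 := by
  obtain ⟨c, ε₁, hc, hε, H⟩ := hc_core 𝔤 C σ h (pl_skew 0 1)
  refine ⟨c, ε₁, hc, hε, fun ε h0 h1 ψ hψ => ?_⟩
  have h2 := (cls_iff_ds 𝔤 C σ.G neut ψ).2 ⟨hψ.1, fun p hp => hψ.2 p (Or.inr hp)⟩
  refine H ε 0 (2 * Real.pi) h0 h1 (abs_of_pos (by positivity)).le ψ
    ⟨⟨h2.1, h2.2.1, fun _ hp => hp.elim⟩, Or.inr ⟨le_rfl, h2.2.2 (V0, 0) rfl⟩⟩ fun x => ?_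
  have e : rexp' ((-(2 * Real.pi)) • mat (pl 0 1)) x = x := by
    conv_lhs => rw [← rexp'_pl_two_pi x, ← rexp'_add_smul, neg_add_cancel, zero_smul, rexp'_zero]
  rw [e]
  have h3 : ψ x = (-par C σ.G) (ψ x) := hψ.2 (ContinuousLinearMap.id ℝ _, -par C σ.G) (Set.mem_insert _ _) x
  rw [neg_apply, ← neg_eq_iff_eq_neg] at h3
  rw [h3, par]

end Crest.Agent.R330

end
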