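import Crest.Agent.R330.H.C

/-! # Row 330, H/D (statements frozen; see `R330/Blueprint.lean`) -/

set_option autoImplicit false
set_option linter.unusedSectionVars false

noncomputable section

open MeasureTheory Filter Topology
open scoped InnerProductSpace ContDiff Matrix
open Crest.MathPhysics.MatrixQM (GammaNine)

namespace Crest.Agent.R330

variable {E F : Type} [NormedAddCommGroup E] [InnerProductSpace ℝ E] [FiniteDimensional ℝ E]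
  [MeasurableSpace E] [BorelSpace E]
  [NormedAddCommGroup F] [InnerProductSpace ℂ F] [FiniteDimensional ℂ F]
  (𝔤 : Lie E) (C : Cl (Th E) F) (σ : Spn)

theorem hd_wint {Ψ : X E → F} (hΨ : MemLp Ψ 2 volume) {ρ : X E → ℝ}
    (hρ : AEStronglyMeasurable ρ volume) {B : ℝ} (h : ∀ x, 0 ≤ ρ x ∧ ρ x ≤ B) :
    Integrable fun x => ρ x * ‖Ψ x‖ ^ 2 :=
  (fae_int_sq hΨ).bdd_mul (c := B) hρ (Eventually.of_forall fun x => by
    rw [Real.norm_of_nonneg (h x).1]; exact (h x).2)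

theorem hd_cmp {a b : X E → F} (ha : MemLp a 2 volume) (hb : MemLp b 2 volume) {ρ : X E → ℝ}
    (hρ : AEStronglyMeasurable ρ volume) {B : ℝ} (h : ∀ x, 0 ≤ ρ x ∧ ρ x ≤ B) :
    ∫ x, ρ x * ‖a x‖ ^ 2 ≤ 2 * (∫ x, ρ x * ‖b x‖ ^ 2) + 2 * B * ∫ x, ‖a x - b x‖ ^ 2 := by
  have i1 := hd_wint hb hρ h
  have i2 : Integrable fun x => ‖a x - b x‖ ^ 2 := fae_int_sq (ha.sub hb)
  rw [← integral_const_mul, ← integral_const_mul, ← integral_add (i1.const_mul _) (i2.const_mul _)]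
  refine integral_mono (hd_wint ha hρ h) ((i1.const_mul _).add (i2.const_mul _)) fun x => ?_
  have k := fae_add_sq (b x) (a x - b x)
  rw [add_sub_cancel] at k
  have k1 := mul_le_mul_of_nonneg_left k (h x).1
  have k2 := mul_le_mul_of_nonneg_right (h x).2 (sq_nonneg ‖a x - b x‖)
  change ρ x * ‖a x‖ ^ 2 ≤ 2 * (ρ x * ‖b x‖ ^ 2) + 2 * B * ‖a x - b x‖ ^ 2
  nlinarith

/-- Weighted inequalities pass to `L²` limits (up to a factor `4`). -/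
theorem hd_pass {Ψ : X E → F} (hΨ : MemLp Ψ 2 volume) {φ : ℕ → X E → F} (hφ : ∀ n, Core (φ n))
    (h1 : Tendsto (fun n => ∫ x, ‖φ n x - Ψ x‖ ^ 2) atTop (𝓝 0)) {q : ℕ → ℝ}
    (hq : Tendsto q atTop (𝓝 0)) {ρ₁ ρ₂ : X E → ℝ} (m₁ : AEStronglyMeasurable ρ₁ volume)
    (m₂ : AEStronglyMeasurable ρ₂ volume) {B₁ B₂ A : ℝ} (b₁ : ∀ x, 0 ≤ ρ₁ x ∧ ρ₁ x ≤ B₁)
    (b₂ : ∀ x, 0 ≤ ρ₂ x ∧ ρ₂ x ≤ B₂) (hA : 0 ≤ A)
    (h : ∀ n, ∫ x, ρ₁ x * ‖φ n x‖ ^ 2 ≤ q n + A * ∫ x, ρ₂ x * ‖φ n x‖ ^ 2) :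
    ∫ x, ρ₁ x * ‖Ψ x‖ ^ 2 ≤ 4 * A * ∫ x, ρ₂ x * ‖Ψ x‖ ^ 2 := by
  have t := ((hq.const_mul 2).add (h1.const_mul (4 * A * B₂ + 2 * B₁))).add_const
    (4 * A * ∫ x, ρ₂ x * ‖Ψ x‖ ^ 2)
  simp only [mul_zero, add_zero, zero_add] at t
  refine ge_of_tendsto' t fun n => ?_
  have k1 := hd_cmp hΨ (hφ n).memLp m₁ b₁
  have k2 := hd_cmp (hφ n).memLp hΨ m₂ b₂
  simp only [norm_sub_rev (Ψ _)] at k1
  have k3 := mul_le_mul_of_nonneg_left k2 hA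
  have := h n
  nlinarith

theorem hd_zero {Ψ : X E → F} (hΨ : MemLp Ψ 2 volume) {ρ : X E → ℝ}
    (hρ : AEStronglyMeasurable ρ volume) {B : ℝ} (h : ∀ x, 0 < ρ x ∧ ρ x ≤ B)
    (h0 : ∫ x, ρ x * ‖Ψ x‖ ^ 2 ≤ 0) : Ψ =ᵐ[volume] 0 := by
  have hn : ∀ x, 0 ≤ ρ x * ‖Ψ x‖ ^ 2 := fun x => mul_nonneg (h x).1.le (sq_nonneg _)
  have := (integral_eq_zero_iff_of_nonneg hn (hd_wint hΨ hρ fun x => ⟨(h x).1.le, (h x).2⟩)).1
    (le_antisymm h0 (integral_nonneg hn))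
  filter_upwards [this] with x hx
  have h1 : ‖Ψ x‖ ^ 2 = 0 := (mul_eq_zero.1 hx).resolve_left (h x).1.ne'
  simpa using h1

theorem hd_W (ε : ℝ) (hε : 0 ≤ ε) :
    Continuous (fun x : X E => 1 / (1 + ‖x‖ ^ 2) + ε) ∧
      ∀ x : X E, 0 < 1 / (1 + ‖x‖ ^ 2) + ε ∧ 1 / (1 + ‖x‖ ^ 2) + ε ≤ 1 + ε := by
  refine ⟨(continuous_const.div (by fun_prop) fun x => by positivity).add continuous_const,
    fun x => ⟨by positivity, ?_⟩⟩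
  have : 1 / (1 + ‖x‖ ^ 2) ≤ 1 := by
    rw [div_le_one (by positivity)]
    nlinarith [sq_nonneg ‖x‖]
  linarith

theorem hd_sqrt {I A B : ℝ} (hA : 0 ≤ A) (hB : 0 ≤ B)
    (h : ∀ s : ℝ, 0 < s → 2 * s * I ≤ s ^ 2 * A + B) : I ≤ √A * √B := by
  rcases le_or_gt I 0 with hI | hI
  · exact hI.trans (by positivity)
  have k : discrim A (-2 * I) B ≤ 0 := discrim_le_zero fun s => by
    rcases le_or_gt s 0 with hs | hs
    · have := mul_nonneg (neg_nonneg.2 hs) hI.le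
      have := mul_nonneg hA (mul_self_nonneg s)
      nlinarith
    · have := h s hs
      nlinarith
  rw [discrim] at k
  rw [← Real.sqrt_mul hA]
  exact Real.le_sqrt_of_sq_le (by nlinarith)

theorem hd_cw (ε : ℝ) : ContDiff ℝ ∞ (wd 𝔤 σ ε fun _ => 0) := contDiff_wd 𝔤 σ ε contDiff_const

theorem hd_compat (ε : ℝ) :
    Compat C (cmap σ.G σ.s) (wd 𝔤 σ ε fun _ => 0) (flows 𝔤 C σ.G neut) :=
  compat_Qd 𝔤 C σ (fun p hp => by rw [show p = (V0, 0) from hp]) ε fun _ _ => (map_zero _).symm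

theorem hd_compat0 (ε : ℝ) :
    Compat C (cmap σ.G σ.s) (wd 𝔤 σ ε fun _ => 0) (flows 𝔤 C σ.G ∅) :=
  compat_Qd 𝔤 C σ (fun _ hp => hp.elim) ε fun _ _ => (map_zero _).symm

theorem hd_sub {p : (X E →L[ℝ] X E) × (F →L[ℂ] F)} (hp : p ∈ flows 𝔤 C σ.G ∅) :
    p ∈ flows 𝔤 C σ.G neut := by
  rcases hp with hp | ⟨q, hq, _⟩
  · exact Or.inl hp
  · exact hq.elim

/-- A cut-off even zero mode of `Q_ε'` is close to a zero mode of `Q_ε`. -/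
theorem hd_quasi {ε ε' c : ℝ} (hc : 0 < c) {W : X E → ℝ} (hW : Continuous W) (hW0 : ∀ x, 0 < W x)
    (hgap : ∀ ψ, DS (withPar (flows 𝔤 C σ.G neut) (-par C σ.G)) ψ →
      c * ∫ x, W x * ‖ψ x‖ ^ 2 ≤ ∫ x, ‖Qe 𝔤 C σ ε ψ x‖ ^ 2)
    {Ψ : X E → F} (hΨ : Ψ ∈ WK (flows 𝔤 C σ.G neut) (Qe 𝔤 C σ ε'))
    (he : HS (withPar (flows 𝔤 C σ.G neut) (par C σ.G)) Ψ)
    {χ : X E → ℝ} (c1 : ContDiff ℝ ∞ χ) (c3 : ∀ x, 0 ≤ χ x ∧ χ x ≤ 1)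
    (c8 : ∀ x y, ‖x‖ = ‖y‖ → χ x = χ y) {ρ : X E → ℝ} (hρ0 : ∀ x, 0 ≤ ρ x)
    (hρ : Integrable fun x => ρ x * ‖Ψ x‖ ^ 2)
    (hle : ∀ x, 2 * ‖gradient χ x‖ ^ 2 + 32 * (ε - ε') ^ 2 * (‖x‖ ^ 2 * χ x ^ 2) ≤ ρ x * W x) :
    MemLp (fun x => (χ x : ℂ) • Ψ x) 2 volume ∧ ∃ φ' ∈ WK (flows 𝔤 C σ.G neut) (Qe 𝔤 C σ ε),
      ∫ x, ‖(χ x : ℂ) • Ψ x - φ' x‖ ^ 2 ≤ c⁻¹ * ∫ x, ρ x * ‖Ψ x‖ ^ 2 := by
  have hS := symOK_flows 𝔤 C σ.G neut_ok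
  have hP := isPar_par C σ.G
  have hm : MemLp (fun x => (χ x : ℂ) • Ψ x) 2 volume := by
    refine he.1.of_le ((Complex.continuous_ofReal.comp c1.continuous).aestronglyMeasurable.smul he.1.1)
      (Eventually.of_forall fun x => ?_)
    rw [norm_smul, Complex.norm_real, Real.norm_of_nonneg (c3 x).1]
    exact mul_le_of_le_one_left (norm_nonneg _) (c3 x).2
  have hφ : HS (withPar (flows 𝔤 C σ.G neut) (par C σ.G)) fun x => (χ x : ℂ) • Ψ x := by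
    refine ⟨hm, fun p hp => ?_⟩
    filter_upwards [he.2 p hp] with x hx
    rw [map_smul, hx, c8 _ x ((symOK_withPar hS hP p hp).1 x)]
  set A := ∫ x, ρ x * ‖Ψ x‖ ^ 2 with hA
  have hA0 : 0 ≤ A := integral_nonneg fun x => mul_nonneg (hρ0 x) (sq_nonneg _)
  rw [← Real.sq_sqrt (by positivity : 0 ≤ c⁻¹ * A)]
  refine ⟨hm, duality C (cmap σ.G σ.s) (hd_cw 𝔤 σ ε) hS (hd_compat 𝔤 C σ ε) hP
    (par_comm_flows 𝔤 C σ.G neut hP) hφ (Real.sqrt_nonneg (c⁻¹ * A)) (fun ψ hψ => ?_)⟩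
  have hχψ : DS (flows 𝔤 C σ.G neut) fun x => (χ x : ℂ) • ψ x :=
    DS.smul ⟨hψ.1, fun p hp => hψ.2 p (Or.inr hp)⟩ c1 (invS_radial 𝔤 C σ.G neut_ok c8)
  have e0 : wd 𝔤 σ ε' (fun _ => 0) =
      fun y => wd 𝔤 σ ε (fun _ => 0) y + (ε' - ε) • cmap σ.G σ.s (mat V0 y) := by
    funext y
    simp only [wd, sub_smul]
    abel
  set r : X E → F := fun x => Complex.I • C.θ (cmap σ.G σ.s (gradient χ x)) (ψ x) -
    C.θ ((ε' - ε) • cmap σ.G σ.s (mat V0 x)) ((χ x : ℂ) • ψ x) with hr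
  have e1 : ∀ x, ⟪(χ x : ℂ) • Ψ x, Qe 𝔤 C σ ε ψ x⟫_ℂ -
      ⟪Ψ x, Qe 𝔤 C σ ε' (fun y => (χ y : ℂ) • ψ y) x⟫_ℂ = ⟪Ψ x, r x⟫_ℂ := fun x => by
    have : Qe 𝔤 C σ ε' (fun y => (χ y : ℂ) • ψ y) x = (χ x : ℂ) • Qe 𝔤 C σ ε ψ x - r x := by
      rw [Qe, Qd, e0, dirac_add_pot, dirac_smul C _ _ (c1.differentiable (by simp) x)
        (hψ.1.1.differentiable (by simp) x), hr]
      exact (sub_sub_eq_add_sub _ _ _).trans (add_sub_right_comm _ _ _) |>.symm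
    rw [this, inner_sub_right, inner_smul_left, inner_smul_right, Complex.conj_ofReal]
    ring
  have n1 : ∀ x, ‖r x‖ ≤ (‖gradient χ x‖ + 4 * |ε - ε'| * (‖x‖ * χ x)) * ‖ψ x‖ := fun x => by
    have n2 : ‖Complex.I • C.θ (cmap σ.G σ.s (gradient χ x)) (ψ x)‖ ≤ ‖gradient χ x‖ * ‖ψ x‖ := by
      rw [norm_smul, Complex.norm_I, one_mul, ← norm_cmap σ.G σ.unit (gradient χ x)]
      exact C.norm_θ_le _ _
    have n3 : ‖C.θ ((ε' - ε) • cmap σ.G σ.s (mat V0 x)) ((χ x : ℂ) • ψ x)‖ ≤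
        4 * |ε - ε'| * (‖x‖ * χ x) * ‖ψ x‖ := by
      refine (C.norm_θ_le _ _).trans ?_
      rw [norm_smul, norm_cmap σ.G σ.unit, Real.norm_eq_abs, abs_sub_comm, norm_smul,
        Complex.norm_real, Real.norm_of_nonneg (c3 x).1]
      have := mul_le_mul_of_nonneg_right (mul_le_mul_of_nonneg_left (norm_V0_le x) (abs_nonneg (ε - ε')))
        (mul_nonneg (c3 x).1 (norm_nonneg (ψ x)))
      linarith
    exact (norm_sub_le _ _).trans ((add_le_add n2 n3).trans (le_of_eq (by ring)))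
  have i1 : Integrable fun x => ⟪(χ x : ℂ) • Ψ x, Qe 𝔤 C σ ε ψ x⟫_ℂ :=
    fae_int_inner hm (hψ.1.dirac C (cmap σ.G σ.s) (hd_cw 𝔤 σ ε)).memLp
  have i2 : Integrable fun x => ⟪Ψ x, Qe 𝔤 C σ ε' (fun y => (χ y : ℂ) • ψ y) x⟫_ℂ :=
    fae_int_inner he.1 (hχψ.1.dirac C (cmap σ.G σ.s) (hd_cw 𝔤 σ ε')).memLp
  have e2 : ∫ x, ⟪(χ x : ℂ) • Ψ x, Qe 𝔤 C σ ε ψ x⟫_ℂ = ∫ x, ⟪Ψ x, r x⟫_ℂ := by
    simp only [← e1]
    rw [integral_sub i1 i2, hΨ.2 _ hχψ, sub_zero]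
  have i3 := hc_int' hψ.1 hW
  set B := ∫ x, W x * ‖ψ x‖ ^ 2 with hB
  have hB0 : 0 ≤ B := integral_nonneg fun x => mul_nonneg (hW0 x).le (sq_nonneg _)
  have key : ‖∫ x, ⟪Ψ x, r x⟫_ℂ‖ ≤ √A * √B := by
    refine hd_sqrt hA0 hB0 fun s hs => ?_
    have k : ‖∫ x, ⟪Ψ x, r x⟫_ℂ‖ ≤
        ∫ x, (2 * s)⁻¹ * (s ^ 2 * (ρ x * ‖Ψ x‖ ^ 2) + W x * ‖ψ x‖ ^ 2) := by
      refine norm_integral_le_of_norm_le (((hρ.const_mul _).add i3).const_mul _)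
        (Eventually.of_forall fun x => ?_)
      rw [le_inv_mul_iff₀ (by positivity)]
      have k1 := (norm_inner_le_norm (𝕜 := ℂ) (Ψ x) (r x)).trans
        (mul_le_mul_of_nonneg_left (n1 x) (norm_nonneg _))
      have k2 : (‖gradient χ x‖ + 4 * |ε - ε'| * (‖x‖ * χ x)) ^ 2 ≤ ρ x * W x := by
        refine le_trans ?_ (hle x)
        rw [← sq_abs (ε - ε')]
        nlinarith [sq_nonneg (‖gradient χ x‖ - 4 * |ε - ε'| * (‖x‖ * χ x))]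
      refine (mul_le_mul_of_nonneg_left k1 (by positivity)).trans ?_
      generalize ‖gradient χ x‖ + 4 * |ε - ε'| * (‖x‖ * χ x) = g at k2 ⊢
      refine le_of_mul_le_mul_left ?_ (hW0 x)
      have k3 := mul_le_mul_of_nonneg_right k2 (sq_nonneg (s * ‖Ψ x‖))
      nlinarith [sq_nonneg (g * (s * ‖Ψ x‖) - W x * ‖ψ x‖)]
    rw [integral_const_mul, integral_add (hρ.const_mul _) i3, integral_const_mul,
      le_inv_mul_iff₀ (by positivity)] at k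
    exact k
  change ‖∫ x, ⟪(χ x : ℂ) • Ψ x, Qe 𝔤 C σ ε ψ x⟫_ℂ‖ ≤ _ * √(∫ x, ‖Qe 𝔤 C σ ε ψ x‖ ^ 2)
  rw [e2]
  refine key.trans ?_
  rw [← Real.sqrt_mul hA0, ← Real.sqrt_mul (by positivity)]
  refine Real.sqrt_le_sqrt ?_
  have := mul_le_mul_of_nonneg_left (hgap ψ hψ) (by positivity : 0 ≤ c⁻¹ * A)
  refine le_trans (le_of_eq ?_) this
  rw [← hB]
  field_simp

/-- Neutral zero modes are even. -/
theorem hd_even {ε c : ℝ} (hc : 0 < c) (hε : 0 ≤ ε)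
    (hgap : ∀ ψ, DS (withPar (flows 𝔤 C σ.G neut) (-par C σ.G)) ψ →
      c * ∫ x, (1 / (1 + ‖x‖ ^ 2) + ε) * ‖ψ x‖ ^ 2 ≤ ∫ x, ‖Qe 𝔤 C σ ε ψ x‖ ^ 2)
    (h : NonTriv (WK (flows 𝔤 C σ.G neut) (Qe 𝔤 C σ ε))) :
    ∃ Ψ ∈ WK (flows 𝔤 C σ.G neut) (Qe 𝔤 C σ ε),
      HS (withPar (flows 𝔤 C σ.G neut) (par C σ.G)) Ψ ∧ ¬ Ψ =ᵐ[volume] 0 := by
  obtain ⟨Ψ, hΨ, h0⟩ := h
  have hS := symOK_flows 𝔤 C σ.G neut_ok
  have hP := isPar_par C σ.G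
  obtain ⟨p1, p2⟩ := wk_par C (cmap σ.G σ.s) (hd_cw 𝔤 σ ε) hS hP (par_comm_flows 𝔤 C σ.G neut hP) hΨ
  obtain ⟨n1, n2⟩ := wk_par C (cmap σ.G σ.s) (hd_cw 𝔤 σ ε) hS hP.neg
    (par_comm_flows 𝔤 C σ.G neut hP.neg) hΨ
  refine ⟨_, p1, p2, fun hp => h0 ?_⟩
  rw [wk_eq_sk C _ (hd_cw 𝔤 σ ε) hS (hd_compat 𝔤 C σ ε)] at n1
  obtain ⟨hm, φ, hφ, t1, t2⟩ := fae_sk C _ (hd_cw 𝔤 σ ε) ((sk_extra C _ (hd_cw 𝔤 σ ε) hS
    (symOK_withPar hS hP.neg) (hd_compat 𝔤 C σ ε)).2 ⟨n1, n2⟩)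
  obtain ⟨w1, w2⟩ := hd_W (E := E) ε hε
  have w3 : ∀ x : X E, 0 ≤ 1 / (1 + ‖x‖ ^ 2) + ε ∧ 1 / (1 + ‖x‖ ^ 2) + ε ≤ 1 + ε :=
    fun x => ⟨(w2 x).1.le, (w2 x).2⟩
  have t3 := t2.const_mul c⁻¹
  rw [mul_zero] at t3
  have k := hd_pass hm (fun n => (hφ n).1) t1 t3 w1.aestronglyMeasurable w1.aestronglyMeasurable w3 w3
    le_rfl fun n => by
      rw [zero_mul, add_zero, le_inv_mul_iff₀ hc]
      exact hgap _ ⟨(hφ n).1, fun p hp => (hφ n).2 p (Or.inr hp)⟩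
  rw [mul_zero, zero_mul] at k
  filter_upwards [hp, hd_zero hm w1.aestronglyMeasurable w2 k] with x h1 h2
  have e : Ψ x = (1 / 2 : ℂ) • (Ψ x + par C σ.G (Ψ x)) + (1 / 2 : ℂ) • (Ψ x + (-par C σ.G) (Ψ x)) := by
    rw [neg_apply]
    module
  rw [e, h1, h2]
  simp

theorem hd_ball (R : ℝ) (ψ : X E → F) : ∫ x in Metric.closedBall 0 R, ‖ψ x‖ ^ 2 =
    ∫ x, (if ‖x‖ ≤ R then 1 else 0) * ‖ψ x‖ ^ 2 := by
  rw [← integral_indicator measurableSet_closedBall]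
  congr 1
  funext x
  by_cases hx : ‖x‖ ≤ R
  · rw [Set.indicator_of_mem (mem_closedBall_zero_iff.2 hx), if_pos hx, one_mul]
  · rw [Set.indicator_of_notMem (fun h => hx (mem_closedBall_zero_iff.1 h)), if_neg hx, zero_mul]

theorem hd_m1 (R : ℝ) : AEStronglyMeasurable (fun x : X E => if ‖x‖ ≤ R then (1 : ℝ) else 0) volume ∧
    ∀ x : X E, 0 ≤ (if ‖x‖ ≤ R then (1 : ℝ) else 0) ∧ (if ‖x‖ ≤ R then (1 : ℝ) else 0) ≤ 1 :=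
  ⟨(Measurable.ite (measurableSet_le measurable_norm measurable_const) measurable_const
    measurable_const).aestronglyMeasurable, fun x => by split_ifs <;> norm_num⟩

theorem hd_m2 {L : ℝ} (hL : 1 ≤ L) :
    AEStronglyMeasurable (fun x : X E => if L ≤ ‖x‖ then 1 / ‖x‖ ^ 2 else (0 : ℝ)) volume ∧
    ∀ x : X E, 0 ≤ (if L ≤ ‖x‖ then 1 / ‖x‖ ^ 2 else (0 : ℝ)) ∧
      (if L ≤ ‖x‖ then 1 / ‖x‖ ^ 2 else (0 : ℝ)) ≤ 1 := by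
  refine ⟨(Measurable.ite (measurableSet_le measurable_const measurable_norm) (by fun_prop)
    measurable_const).aestronglyMeasurable, fun x => ?_⟩
  split_ifs with h
  · refine ⟨by positivity, ?_⟩
    rw [div_le_one (by nlinarith)]
    nlinarith
  · norm_num

/-- Tail estimates for neutral zero modes, uniformly in `ε`. -/
theorem hd_tail (h : Hinf 𝔤 C σ) : ∃ K R ε₀ : ℝ, 0 < K ∧ 0 < R ∧ 0 < ε₀ ∧
    ∀ ε L : ℝ, 0 ≤ ε → ε ≤ ε₀ → 1 ≤ L → ∀ Ψ ∈ WK (flows 𝔤 C σ.G neut) (Qe 𝔤 C σ ε),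
      (∫ x, (if L ≤ ‖x‖ then 1 / ‖x‖ ^ 2 else 0) * ‖Ψ x‖ ^ 2 ≤
        K * L ^ (-(5 / 2) : ℝ) * ∫ x, (if ‖x‖ ≤ R then 1 else 0) * ‖Ψ x‖ ^ 2) ∧
      ∫ x, (1 / (1 + ‖x‖ ^ 2) + ε) * ‖Ψ x‖ ^ 2 ≤ K * ∫ x, (if ‖x‖ ≤ R then 1 else 0) * ‖Ψ x‖ ^ 2 := by
  obtain ⟨K, R, ε₀, hK, hR, hε₀, hT⟩ := tail_ball 𝔤 C σ h
  refine ⟨4 * K, R, ε₀, by positivity, hR, hε₀, fun ε L h0 h1 hL Ψ hΨ => ?_⟩
  have hS := symOK_flows 𝔤 C σ.G neut_ok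
  have hΨ' := (wk_eq_sk C _ (hd_cw 𝔤 σ ε) hS (hd_compat 𝔤 C σ ε)).subset hΨ
  obtain ⟨hm, φ, hφ, t1, t2⟩ := fae_sk C _ (hd_cw 𝔤 σ ε) hΨ'
  have t3 := t2.const_mul K
  rw [mul_zero] at t3
  have hs : ∀ n, Sect 𝔤 C σ ε 0 (φ n) := fun n => by
    have h2 := (cls_iff_ds 𝔤 C σ.G neut (φ n)).2 (hφ n)
    exact ⟨⟨h2.1, h2.2.1, fun _ hp => hp.elim⟩, Or.inr ⟨le_rfl, h2.2.2 (V0, 0) rfl⟩⟩
  obtain ⟨w1, w2⟩ := hd_W (E := E) ε h0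
  have hL0 : 0 ≤ L ^ (-(5 / 2) : ℝ) := Real.rpow_nonneg (by linarith) _
  constructor
  · refine (hd_pass hm (fun n => (hφ n).1) t1 t3 (hd_m2 hL).1 (hd_m1 R).1 (hd_m2 hL).2 (hd_m1 R).2
      (mul_nonneg hK.le hL0) fun n => ?_).trans (le_of_eq (by ring))
    have := (hT ε 0 L h0 h1 hL _ (hs n)).1
    rw [hd_ball, mul_add, ← mul_assoc] at this
    exact this
  · refine hd_pass hm (fun n => (hφ n).1) t1 t3 w1.aestronglyMeasurable (hd_m1 R).1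
      (fun x => ⟨(w2 x).1.le, (w2 x).2⟩) (hd_m1 R).2 hK.le fun n => ?_
    have := (hT ε 0 L h0 h1 hL _ (hs n)).2
    rw [hd_ball, mul_add] at this
    exact this

theorem hd_exist (h : Hinf 𝔤 C σ)
    (hε : ∀ ε : ℝ, 0 < ε → NonTriv (WK (flows 𝔤 C σ.G neut) (Qe 𝔤 C σ ε))) :
    NonTriv (WK (flows 𝔤 C σ.G neut) (Qe 𝔤 C σ 0)) := by
  obtain ⟨K, R, ε₀, hK, hR, hε₀, hT⟩ := hd_tail 𝔤 C σ h
  obtain ⟨c, ε₁, hc, hε₁, hG⟩ := gap_odd 𝔤 C σ h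
  obtain ⟨b, hb, hχ⟩ := exists_radial_cutoff (Y := X E)
  obtain ⟨s, hs⟩ : ∃ s, s = 1 + R + 160 * b ^ 2 * K / c := ⟨_, rfl⟩
  have hs0 : 0 ≤ 160 * b ^ 2 * K / c := by positivity
  have hs1 : 1 ≤ s := by linarith
  have hs2 : 0 < s := by linarith
  have hs3 : 160 * b ^ 2 * K / c ≤ s := by linarith
  have hr1 : 1 ≤ s ^ 2 := one_le_pow₀ hs1
  have hsR : R ≤ s ^ 2 := (by linarith : R ≤ s).trans (le_self_pow₀ hs1 (by norm_num))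
  clear hs
  obtain ⟨χ, c1, -, c3, c4, c5, c6, c7, c8⟩ := hχ (s ^ 2) (by positivity)
  obtain ⟨ε, e0, e1, e2, e3, e4⟩ : ∃ ε : ℝ, 0 < ε ∧ ε ≤ ε₀ ∧ ε ≤ ε₁ ∧ ε ≤ 1 ∧
      ε ≤ c / (12800 * K * s ^ 12) :=
    ⟨min (min ε₀ ε₁) (min 1 (c / (12800 * K * s ^ 12))), by positivity,
      (min_le_left _ _).trans (min_le_left _ _), (min_le_left _ _).trans (min_le_right _ _),
      (min_le_right _ _).trans (min_le_left _ _), (min_le_right _ _).trans (min_le_right _ _)⟩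
  obtain ⟨Ψ, hΨ, he, hne⟩ := hd_even 𝔤 C σ hc e0.le (hG ε e0.le e2) (hε ε e0)
  obtain ⟨T1, T2⟩ := hT ε (s ^ 2) e0.le e1 hr1 Ψ hΨ
  rw [hc_rpow hs2 2 5 rfl] at T1
  obtain ⟨w1, w2⟩ := hd_W (E := E) ε e0.le
  obtain ⟨v1, v2⟩ := hd_W (E := E) 0 le_rfl
  have i1 := hd_wint he.1 (hd_m2 hr1).1 (hd_m2 hr1).2
  have i2 := hd_wint he.1 w1.aestronglyMeasurable fun x => ⟨(w2 x).1.le, (w2 x).2⟩
  have eρ : ∀ x : X E, (40 * b ^ 2 * s ^ 4 * (if s ^ 2 ≤ ‖x‖ then 1 / ‖x‖ ^ 2 else 0) +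
      3200 * ε ^ 2 * s ^ 12 * (1 / (1 + ‖x‖ ^ 2) + ε)) * ‖Ψ x‖ ^ 2 =
      40 * b ^ 2 * s ^ 4 * ((if s ^ 2 ≤ ‖x‖ then 1 / ‖x‖ ^ 2 else 0) * ‖Ψ x‖ ^ 2) +
      3200 * ε ^ 2 * s ^ 12 * ((1 / (1 + ‖x‖ ^ 2) + ε) * ‖Ψ x‖ ^ 2) := fun x => by ring
  refine And.elim (fun hm hh => ?_) (hd_quasi 𝔤 C σ hc v1 (fun x => (v2 x).1) (hG 0 le_rfl hε₁.le) hΨ he
    c1 c3 c8 (ρ := fun x => 40 * b ^ 2 * s ^ 4 * (if s ^ 2 ≤ ‖x‖ then 1 / ‖x‖ ^ 2 else 0) +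
      3200 * ε ^ 2 * s ^ 12 * (1 / (1 + ‖x‖ ^ 2) + ε))
    (fun x => add_nonneg (mul_nonneg (by positivity) ((hd_m2 hr1).2 x).1) (by positivity))
    (by simp only [eρ]; exact (i1.const_mul _).add (i2.const_mul _)) (fun x => ?_))
  · obtain ⟨φ', h1, h2⟩ := hh
    refine ⟨φ', h1, fun h0 => hne ?_⟩
    simp only [eρ] at h2
    rw [integral_add (i1.const_mul _) (i2.const_mul _), integral_const_mul, integral_const_mul] at h2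
    set m := ∫ x, (if ‖x‖ ≤ R then 1 else 0) * ‖Ψ x‖ ^ 2 with hm'
    have hm0 : 0 ≤ m := integral_nonneg fun x => mul_nonneg ((hd_m1 R).2 x).1 (sq_nonneg _)
    have k1 : m ≤ ∫ x, ‖(χ x : ℂ) • Ψ x - φ' x‖ ^ 2 := by
      refine integral_mono_ae (hd_wint he.1 (hd_m1 R).1 (hd_m1 R).2) (fae_int_sq (hm.sub h1.1.1)) ?_
      filter_upwards [h0] with x hx
      rw [hx, Pi.zero_apply, sub_zero]
      split_ifs with h
      · rw [c4 x (h.trans hsR), Complex.ofReal_one, one_smul, one_mul]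
      · rw [zero_mul]; positivity
    have k2 := mul_le_mul_of_nonneg_left T1 (by positivity : 0 ≤ 40 * b ^ 2 * s ^ 4)
    have k3 := mul_le_mul_of_nonneg_left T2 (by positivity : 0 ≤ 3200 * ε ^ 2 * s ^ 12)
    have k4 : 40 * b ^ 2 * s ^ 4 * (K * (s ^ 5)⁻¹) ≤ c / 4 := by
      rw [div_le_iff₀ hc] at hs3
      have : 40 * b ^ 2 * s ^ 4 * (K * (s ^ 5)⁻¹) = 40 * b ^ 2 * K / s := by field_simp
      rw [this, div_le_iff₀ hs2]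
      linarith
    have k5 : 3200 * ε ^ 2 * s ^ 12 * K ≤ c / 4 := by
      rw [le_div_iff₀ (by positivity)] at e4
      have : ε ^ 2 ≤ ε := by nlinarith
      have := mul_le_mul_of_nonneg_right this (by positivity : 0 ≤ 3200 * s ^ 12 * K)
      linarith
    have k6 := mul_le_mul_of_nonneg_right k4 hm0
    have k7 := mul_le_mul_of_nonneg_right k5 hm0
    have k8 := k1.trans h2
    rw [le_inv_mul_iff₀ hc] at k8
    have k9 : c * m ≤ 0 := by nlinarith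
    have k10 : m ≤ 0 := by
      by_contra hh
      exact absurd k9 (not_le.2 (mul_pos hc (not_le.1 hh)))
    exact hd_zero he.1 w1.aestronglyMeasurable w2 (T2.trans (by nlinarith))
  · rw [add_zero, zero_sub, neg_sq]
    have hu : 0 < 1 / (1 + ‖x‖ ^ 2) := by positivity
    rcases lt_or_ge (2 * s ^ 2) ‖x‖ with h3 | h3
    · rw [c7 x (Or.inr h3), c5 x h3.le, norm_zero]
      have := ((hd_m2 hr1).2 x).1
      simp only [ne_eq, OfNat.ofNat_ne_zero, not_false_eq_true, zero_pow, mul_zero, add_zero]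
      positivity
    have g1 : ‖x‖ ^ 2 ≤ 4 * s ^ 4 :=
      (pow_le_pow_left₀ (norm_nonneg _) h3 2).trans (le_of_eq (by ring))
    have g2 : 1 ≤ 5 * s ^ 4 * (1 / (1 + ‖x‖ ^ 2)) := by
      rw [mul_one_div, le_div_iff₀ (by positivity)]
      have : 1 ≤ s ^ 4 := one_le_pow₀ hs1
      linarith
    generalize 1 / (1 + ‖x‖ ^ 2) = u at hu g2 ⊢
    have g3 : ‖x‖ ^ 2 * χ x ^ 2 ≤ 4 * s ^ 4 :=
      (mul_le_of_le_one_right (sq_nonneg _) (pow_le_one₀ (c3 x).1 (c3 x).2)).trans g1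
    have g4 : 32 * ε ^ 2 * (‖x‖ ^ 2 * χ x ^ 2) ≤ 3200 * ε ^ 2 * s ^ 12 * (u + ε) * u := by
      calc _ ≤ 32 * ε ^ 2 * (4 * s ^ 4 * (5 * s ^ 4 * u) ^ 2) :=
            mul_le_mul_of_nonneg_left
              (g3.trans (le_mul_of_one_le_right (by positivity) (one_le_pow₀ g2))) (by positivity)
        _ = 3200 * ε ^ 2 * s ^ 12 * u * u := by ring
        _ ≤ _ := by gcongr; linarith
    have g5 : 2 * ‖gradient χ x‖ ^ 2 ≤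
        40 * b ^ 2 * s ^ 4 * (if s ^ 2 ≤ ‖x‖ then 1 / ‖x‖ ^ 2 else 0) * u := by
      split_ifs with h4
      · have p : 0 < ‖x‖ := (by positivity : 0 < s ^ 2).trans_le h4
        have g6 : 1 ≤ 4 * s ^ 4 * (1 / ‖x‖ ^ 2) := by
          rw [mul_one_div, le_div_iff₀ (by positivity)]
          linarith
        calc _ ≤ 2 * (b / s ^ 2) ^ 2 := by gcongr; exact c6 x
          _ ≤ 2 * (b / s ^ 2) ^ 2 * ((4 * s ^ 4 * (1 / ‖x‖ ^ 2)) * (5 * s ^ 4 * u)) :=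
            le_mul_of_one_le_right (by positivity) (one_le_mul_of_one_le_of_one_le g6 g2)
          _ = _ := by field_simp; ring
      · rw [c7 x (Or.inl (not_le.1 h4))]
        simp
    rw [add_mul]
    exact add_le_add g5 g4

theorem hd_T {Ψ : X E → F} (hΨ : MemLp Ψ 2 volume) :
    Tendsto (fun r : ℝ => ∫ x, min ((r ^ 2)⁻¹ * ‖x‖ ^ 2) 1 * ‖Ψ x‖ ^ 2) atTop (𝓝 0) := by
  have h := tendsto_integral_filter_of_dominated_convergence (μ := (volume : Measure (X E)))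
    (l := (atTop : Filter ℝ)) (F := fun r x => min ((r ^ 2)⁻¹ * ‖x‖ ^ 2) 1 * ‖Ψ x‖ ^ 2)
    (f := fun _ => 0) (fun x => ‖Ψ x‖ ^ 2)
    (Eventually.of_forall fun r => (Continuous.aestronglyMeasurable (by fun_prop)).mul
      (fae_int_sq hΨ).1)
    (Eventually.of_forall fun r => Eventually.of_forall fun x => by
      rw [Real.norm_of_nonneg (by positivity)]
      exact mul_le_of_le_one_left (sq_nonneg _) (min_le_right _ _))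
    (fae_int_sq hΨ) (Eventually.of_forall fun x => by
      have t := (((tendsto_pow_atTop (α := ℝ) two_ne_zero).inv_tendsto_atTop.mul_const
        (‖x‖ ^ 2)).min (tendsto_const_nhds (x := (1 : ℝ)))).mul_const (‖Ψ x‖ ^ 2)
      simpa using t)
  simpa using h

theorem hd_approx (h : Hinf 𝔤 C σ) {Ψ : X E → F} (hΨ : Ψ ∈ SK (flows 𝔤 C σ.G ∅) (Qe 𝔤 C σ 0))
    {η : ℝ} (hη : 0 < η) : ∀ᶠ r : ℝ in atTop,
      ∃ φ' ∈ WK (flows 𝔤 C σ.G neut) (Qe 𝔤 C σ (r ^ 2)⁻¹), ∫ x, ‖Ψ x - φ' x‖ ^ 2 ≤ η := by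
  obtain ⟨c, ε₁, hc, hε₁, hG⟩ := gap_odd 𝔤 C σ h
  obtain ⟨b, hb, hχ⟩ := exists_radial_cutoff (Y := X E)
  have he := ker0_sym 𝔤 C σ hΨ
  have hΨ0 := (wk_eq_sk C _ (hd_cw 𝔤 σ 0) (symOK_flows 𝔤 C σ.G fun _ hp => hp.elim)
    (hd_compat0 𝔤 C σ 0)).superset hΨ
  have hW : Ψ ∈ WK (flows 𝔤 C σ.G neut) (Qe 𝔤 C σ 0) :=
    ⟨⟨he.1, fun p hp => he.2 p (Or.inr hp)⟩,
      fun φ hφ => hΨ0.2 φ ⟨hφ.1, fun p hp => hφ.2 p (hd_sub 𝔤 C σ hp)⟩⟩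
  have t1 := (hd_T he.1).const_mul (2 + 2 * (c⁻¹ * (2 * b ^ 2 + 128)))
  rw [mul_zero] at t1
  have t2 := (tendsto_pow_atTop (α := ℝ) two_ne_zero).inv_tendsto_atTop
  filter_upwards [t1.eventually (ge_mem_nhds hη), t2.eventually (ge_mem_nhds hε₁),
    eventually_gt_atTop 0] with r r1 r2 r3
  obtain ⟨χ, c1, -, c3, c4, c5, c6, c7, c8⟩ := hχ r r3
  have e0 : 0 < (r ^ 2)⁻¹ := by positivity
  have e1 : (r ^ 2)⁻¹ * r ^ 2 = 1 := inv_mul_cancel₀ (by positivity)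
  have e2 : (b / r) ^ 2 = b ^ 2 * (r ^ 2)⁻¹ := by rw [div_pow, div_eq_mul_inv]
  change (r ^ 2)⁻¹ ≤ ε₁ at r2
  generalize (r ^ 2)⁻¹ = ε at *
  obtain ⟨w1, w2⟩ := hd_W (E := E) ε e0.le
  have i1 : Integrable fun x => min (ε * ‖x‖ ^ 2) 1 * ‖Ψ x‖ ^ 2 :=
    hd_wint he.1 (Continuous.aestronglyMeasurable (by fun_prop)) fun x =>
      ⟨by positivity, min_le_right _ _⟩
  have hbig : ∀ x : X E, r ≤ ‖x‖ → min (ε * ‖x‖ ^ 2) 1 = 1 := fun x hx => min_eq_right (by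
    rw [← e1]; gcongr)
  refine And.elim (fun hm hh => ?_) (hd_quasi 𝔤 C σ hc w1 (fun x => (w2 x).1) (hG ε e0.le r2) hW he
    c1 c3 c8 (ρ := fun x => (2 * b ^ 2 + 128) * min (ε * ‖x‖ ^ 2) 1) (fun x => by positivity)
    (by simp only [mul_assoc _ (min _ _)]; exact i1.const_mul _) (fun x => ?_))
  · obtain ⟨φ', h1, h2⟩ := hh
    refine ⟨φ', h1, le_trans ?_ r1⟩
    simp only [mul_assoc _ (min _ _)] at h2
    rw [integral_const_mul] at h2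
    have i2 : Integrable fun x => ‖(χ x : ℂ) • Ψ x - φ' x‖ ^ 2 := fae_int_sq (hm.sub h1.1.1)
    have k : ∫ x, ‖Ψ x - φ' x‖ ^ 2 ≤ 2 * (∫ x, min (ε * ‖x‖ ^ 2) 1 * ‖Ψ x‖ ^ 2) +
        2 * ∫ x, ‖(χ x : ℂ) • Ψ x - φ' x‖ ^ 2 := by
      rw [← integral_const_mul, ← integral_const_mul, ← integral_add (i1.const_mul _) (i2.const_mul _)]
      refine integral_mono (fae_int_sq (he.1.sub h1.1.1)) ((i1.const_mul _).add (i2.const_mul _))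
        fun x => ?_
      have k1 := fae_add_sq (Ψ x - (χ x : ℂ) • Ψ x) ((χ x : ℂ) • Ψ x - φ' x)
      rw [sub_add_sub_cancel] at k1
      have k2 : ‖Ψ x - (χ x : ℂ) • Ψ x‖ ^ 2 ≤ min (ε * ‖x‖ ^ 2) 1 * ‖Ψ x‖ ^ 2 := by
        rcases le_total ‖x‖ r with hx | hx
        · rw [c4 x hx, Complex.ofReal_one, one_smul, sub_self, norm_zero, zero_pow two_ne_zero]
          positivity
        · have : Ψ x - (χ x : ℂ) • Ψ x = ((1 - χ x : ℝ) : ℂ) • Ψ x := by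
            rw [Complex.ofReal_sub, sub_smul, Complex.ofReal_one, one_smul]
          rw [hbig x hx, one_mul, this, norm_smul, Complex.norm_real,
            Real.norm_of_nonneg (sub_nonneg.2 (c3 x).2)]
          exact pow_le_pow_left₀ (mul_nonneg (sub_nonneg.2 (c3 x).2) (norm_nonneg _))
            (mul_le_of_le_one_left (norm_nonneg _) (by linarith [(c3 x).1])) 2
      change ‖Ψ x - φ' x‖ ^ 2 ≤ 2 * (min (ε * ‖x‖ ^ 2) 1 * ‖Ψ x‖ ^ 2) + 2 * ‖(χ x : ℂ) • Ψ x - φ' x‖ ^ 2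
      linarith
    nlinarith
  · rw [sub_zero]
    have g0 : (2 * b ^ 2 + 128) * min (ε * ‖x‖ ^ 2) 1 * ε ≤
        (2 * b ^ 2 + 128) * min (ε * ‖x‖ ^ 2) 1 * (1 / (1 + ‖x‖ ^ 2) + ε) :=
      mul_le_mul_of_nonneg_left (le_add_of_nonneg_left (by positivity)) (by positivity)
    refine le_trans ?_ g0
    have g1 : ‖x‖ ^ 2 * χ x ^ 2 ≤ ‖x‖ ^ 2 :=
      mul_le_of_le_one_right (sq_nonneg _) (pow_le_one₀ (c3 x).1 (c3 x).2)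
    rcases lt_or_ge ‖x‖ r with hx | hx
    · rw [c7 x (Or.inl hx), norm_zero, min_eq_left (by rw [← e1]; gcongr)]
      have g2 := mul_le_mul_of_nonneg_left g1 (by positivity : 0 ≤ 32 * ε ^ 2)
      have g3 : 0 ≤ (2 * b ^ 2 + 96) * (ε ^ 2 * ‖x‖ ^ 2) := by positivity
      nlinarith
    · rw [hbig x hx, mul_one, add_mul]
      have g2 : ‖gradient χ x‖ ^ 2 ≤ b ^ 2 * ε := by
        rw [← e2]; gcongr; exact c6 x
      have g3 : ε * (‖x‖ ^ 2 * χ x ^ 2) ≤ 4 := by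
        rcases le_total (2 * r) ‖x‖ with h3 | h3
        · rw [c5 x h3]; norm_num
        · calc _ ≤ ε * (2 * r) ^ 2 := by
                gcongr
                exact g1.trans (by gcongr)
            _ = 4 * (ε * r ^ 2) := by ring
            _ = 4 := by rw [e1, mul_one]
      have g4 := mul_le_mul_of_nonneg_left g3 (by positivity : 0 ≤ 32 * ε)
      nlinarith

theorem hd_two {H : Type} [NormedAddCommGroup H] [NormedSpace ℂ H] {u v : H}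
    (h : ∀ η : ℝ, 0 < η → ∃ u' v' : H, ‖u - u'‖ ≤ η ∧ ‖v - v'‖ ≤ η ∧
      ∃ a b : ℂ, (a ≠ 0 ∨ b ≠ 0) ∧ a • u' + b • v' = 0) :
    ∃ a b : ℂ, (a ≠ 0 ∨ b ≠ 0) ∧ a • u + b • v = 0 := by
  by_contra hn
  push Not at hn
  set L : ℂ × ℂ →ₗ[ℂ] H := (LinearMap.toSpanSingleton ℂ H u).coprod (LinearMap.toSpanSingleton ℂ H v)
    with hL
  have hLa : ∀ p : ℂ × ℂ, L p = p.1 • u + p.2 • v := fun p => by simp [hL]
  have hk : LinearMap.ker L = ⊥ := by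
    rw [LinearMap.ker_eq_bot']
    intro p hp
    by_contra hp0
    refine hn p.1 p.2 ?_ (by rw [← hLa, hp])
    by_contra hh
    push Not at hh
    exact hp0 (Prod.ext hh.1 hh.2)
  obtain ⟨K, hK, hA⟩ := L.exists_antilipschitzWith hk
  have hK' : (0 : ℝ) < K := hK
  obtain ⟨u', v', h1, h2, a, b, hab, h3⟩ := h (4 * (K : ℝ))⁻¹ (by positivity)
  have k1 : ‖(a, b)‖ ≤ K * ‖L (a, b)‖ := ZeroHomClass.bound_of_antilipschitz L hA _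
  have k2 : L (a, b) = a • (u - u') + b • (v - v') := by
    rw [hLa, smul_sub, smul_sub, sub_add_sub_comm, h3, sub_zero]
  have k3 : ‖L (a, b)‖ ≤ ‖(a, b)‖ * (4 * (K : ℝ))⁻¹ + ‖(a, b)‖ * (4 * (K : ℝ))⁻¹ := by
    rw [k2]
    refine (norm_add_le _ _).trans (add_le_add ?_ ?_) <;> rw [norm_smul]
    · exact mul_le_mul (norm_fst_le (a, b)) h1 (norm_nonneg _) (norm_nonneg _)
    · exact mul_le_mul (norm_snd_le (a, b)) h2 (norm_nonneg _) (norm_nonneg _)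
  have k4 : (K : ℝ) * (‖(a, b)‖ * (4 * (K : ℝ))⁻¹ + ‖(a, b)‖ * (4 * (K : ℝ))⁻¹) = ‖(a, b)‖ / 2 := by
    field_simp; ring
  have k5 := k1.trans (mul_le_mul_of_nonneg_left k3 hK'.le)
  rw [k4] at k5
  have k6 : (a, b) = 0 := norm_le_zero_iff.1 (by linarith)
  rcases hab with h | h
  · exact h (congrArg Prod.fst k6)
  · exact h (congrArg Prod.snd k6)

theorem hd_dist {a b : X E → F} (ha : MemLp a 2 volume) (hb : MemLp b 2 volume) {η : ℝ} (hη : 0 < η)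
    (h : ∫ x, ‖a x - b x‖ ^ 2 ≤ η ^ 2) : ‖ha.toLp a - hb.toLp b‖ ≤ η := by
  refine abs_le_of_sq_le_sq' ?_ hη.le |>.2
  rw [← facC_norm_sq]
  refine le_trans (le_of_eq (integral_congr_ae ?_)) h
  filter_upwards [Lp.coeFn_sub (ha.toLp a) (hb.toLp b), ha.coeFn_toLp, hb.coeFn_toLp] with x h1 h2 h3
  rw [h1, Pi.sub_apply, h2, h3]

theorem hd_comb {a b : X E → F} (ha : MemLp a 2 volume) (hb : MemLp b 2 volume) (s t : ℂ) :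
    s • ha.toLp a + t • hb.toLp b = 0 ↔ (s • a + t • b) =ᵐ[volume] 0 := by
  rw [← MemLp.toLp_const_smul, ← MemLp.toLp_const_smul, ← MemLp.toLp_add, Lp.eq_zero_iff_ae_eq_zero]
  exact ⟨fun h => (MemLp.coeFn_toLp _).symm.trans h, fun h => (MemLp.coeFn_toLp _).trans h⟩

/-- The limit `ε → 0`: the kernel of `Q₀` is a line if the neutral kernel of `Q_ε` is a line for
all small `ε > 0`. -/
theorem limit_zero (h : Hinf 𝔤 C σ)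
    (hε : ∀ ε : ℝ, 0 < ε → NonTriv (WK (flows 𝔤 C σ.G neut) (Qe 𝔤 C σ ε)) ∧
      AtMostOne (WK (flows 𝔤 C σ.G neut) (Qe 𝔤 C σ ε))) :
    NonTriv (SK (flows 𝔤 C σ.G ∅) (Qe 𝔤 C σ 0)) ∧
      AtMostOne (SK (flows 𝔤 C σ.G ∅) (Qe 𝔤 C σ 0)) := by
  constructor
  · obtain ⟨φ, h1, h2⟩ := hd_exist 𝔤 C σ h fun ε h0 => (hε ε h0).1
    obtain ⟨hm, ψ, k1, k2⟩ := (wk_eq_sk C _ (hd_cw 𝔤 σ 0) (symOK_flows 𝔤 C σ.G neut_ok)
      (hd_compat 𝔤 C σ 0)).subset h1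
    exact ⟨φ, ⟨hm, ψ, fun n => ⟨(k1 n).1, fun p hp => (k1 n).2 p (hd_sub 𝔤 C σ hp)⟩, k2⟩, h2⟩
  · intro Ψ₁ h₁ Ψ₂ h₂
    obtain ⟨a, b, hab, h3⟩ := hd_two (u := h₁.1.toLp Ψ₁) (v := h₂.1.toLp Ψ₂) fun η hη => by
      obtain ⟨r, ⟨φ₁, k1, k2⟩, ⟨φ₂, k3, k4⟩, hr⟩ := ((hd_approx 𝔤 C σ h h₁ (pow_pos hη 2)).and
        ((hd_approx 𝔤 C σ h h₂ (pow_pos hη 2)).and (eventually_gt_atTop 0))).exists
      obtain ⟨a, b, hab, h3⟩ := (hε _ (by positivity)).2 φ₁ k1 φ₂ k3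
      exact ⟨k1.1.1.toLp φ₁, k3.1.1.toLp φ₂, hd_dist _ _ hη k2, hd_dist _ _ hη k4, a, b, hab,
        (hd_comb _ _ a b).2 h3⟩
    exact ⟨a, b, hab, (hd_comb _ _ a b).1 h3⟩

end Crest.Agent.R330

end
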