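import Crest.Agent.R330.IA2
import Crest.Agent.R330.IFA

/-! # Row 330, H/E (statements frozen; see `R330/Blueprint.lean`) -/

set_option autoImplicit false
set_option linter.unusedSectionVars false

noncomputable section

open MeasureTheory Filter Topology
open scoped InnerProductSpace ContDiff Matrix
open Crest.MathPhysics.MatrixQM (GammaNine)

namespace Crest.Agent.R330

variable {E F : Type} [NormedAddCommGroup E] [InnerProductSpace ℝ E] [FiniteDimensional ℝ E]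
  [MeasurableSpace E] [BorelSpace E]
  [NormedAddCommGroup F] [InnerProductSpace ℂ F] [FiniteDimensional ℂ F]
  (𝔤 : Lie E) (C : Cl (Th E) F) (σ : Spn)

theorem he_mono {Ψ : X E → F} (hΨ : MemLp Ψ 2 volume) {h k : X E → ℝ} (hh : Continuous h)
    (hle : ∀ x, h x ≤ k x) (hk : MemLp (fun x => (Real.exp (k x) : ℂ) • Ψ x) 2 volume) :
    MemLp (fun x => (Real.exp (h x) : ℂ) • Ψ x) 2 volume := by
  refine hk.of_le ((Complex.continuous_ofReal.comp hh.rexp).aestronglyMeasurable.smul hΨ.1)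
    (Eventually.of_forall fun x => ?_)
  simp only [norm_smul, Complex.norm_real, Real.norm_of_nonneg (Real.exp_nonneg _)]
  gcongr
  exact hle x

theorem he_sm (ε : ℝ) {Fn : E → ℝ} (hF : ContDiff ℝ ∞ Fn) :
    ContDiff ℝ ∞ fun y : X E => ε * mu y + Fn (y 8) :=
  (contDiff_const.mul contDiff_mu).add (hF.comp (PiLp.proj (𝕜 := ℝ) 2 (fun _ : Fin 9 => E) 8).contDiff)

theorem he_pr {ε ε' : ℝ} {Fn Fn' : E → ℝ} (hF : ContDiff ℝ ∞ Fn) (hF' : ContDiff ℝ ∞ Fn')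
    (hi : ∀ ξ v, Fn (rexp' (𝔤.br ξ) v) = Fn v) (hi' : ∀ ξ v, Fn' (rexp' (𝔤.br ξ) v) = Fn' v)
    {k : X E → ℝ} (hk : ∀ y : X E, |(ε' - ε) * mu y + (Fn' (y 8) - Fn (y 8))| ≤ k y)
    (hdec : ∀ Ψ ∈ WK (flows 𝔤 C σ.G neut) (Qd 𝔤 C σ ε (gradient Fn)),
      MemLp (fun x => (Real.exp (k x) : ℂ) • Ψ x) 2 volume) :
    (NonTriv (WK (flows 𝔤 C σ.G neut) (Qd 𝔤 C σ ε (gradient Fn))) →
      NonTriv (WK (flows 𝔤 C σ.G neut) (Qd 𝔤 C σ ε' (gradient Fn')))) ∧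
    (AtMostOne (WK (flows 𝔤 C σ.G neut) (Qd 𝔤 C σ ε' (gradient Fn'))) →
      AtMostOne (WK (flows 𝔤 C σ.G neut) (Qd 𝔤 C σ ε (gradient Fn)))) := by
  have hg : ∀ φ, DS (flows 𝔤 C σ.G neut) φ → ∀ x, GaussAt 𝔤 C φ x := fun φ hφ =>
    ((cls_iff_ds 𝔤 C σ.G neut φ).2 hφ).2.1
  have hh := he_sm (ε' - ε) (hF'.sub hF)
  have e : (fun y : X E => ε' * mu y + Fn' (y 8)) = fun y => (ε * mu y + Fn (y 8)) +
      ((ε' - ε) * mu y + (Fn' (y 8) - Fn (y 8))) := funext fun y => by ring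
  simp only [Qd, funext (wd_eq_grad 𝔤 σ ε hF), funext (wd_eq_grad 𝔤 σ ε' hF'), e] at hdec ⊢
  refine porrati_rozenberg C _ _ (contDiff_wpot 𝔤 σ.G σ.s) (contDiff_wpot 𝔤 σ.G σ.s')
    (symOK_flows 𝔤 C σ.G neut_ok)
    (compat_Qu 𝔤 C σ.G neut_ok _ fun p hp => by rw [show p = (V0, 0) from hp]; exact σ.sig_s)
    (compat_Qu 𝔤 C σ.G neut_ok _ fun p hp => by rw [show p = (V0, 0) from hp]; exact σ.sig_s')
    (fun φ hφ x => (Qu_sq 𝔤 C σ σ.unit σ.h8 (F_two hφ.1 x) (hg φ hφ x)).trans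
      (Qu_sq 𝔤 C σ σ.s'_unit σ.h8' (F_two hφ.1 x) (hg φ hφ x)).symm)
    (fun φ hφ x => Qu_anticomm 𝔤 C σ (F_two hφ.1 x) (hg φ hφ x)) (he_sm ε hF) hh
    (invS_mu 𝔤 C σ ε hi) (invS_mu 𝔤 C σ (ε' - ε) (Fn := fun v => Fn' v - Fn v) fun ξ v => by rw [hi, hi'])
    fun Ψ hΨ => ⟨he_mono hΨ.1.1 hh.continuous (fun x => (le_abs_self _).trans (hk x)) (hdec Ψ hΨ),
      he_mono hΨ.1.1 hh.continuous.neg (fun x => (neg_le_abs _).trans (hk x)) (hdec Ψ hΨ)⟩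

theorem he_zsq (a : ℝ) : ContDiff ℝ ∞ (fun x : X E => a * zsq x) ∧ ∀ x : X E, 0 ≤ zsq x ∧
    ‖gradient (fun x : X E => a * zsq x) x‖ ^ 2 ≤ 4 * a ^ 2 * zsq x := by
  let P : X E →L[ℝ] T 8 E := LinearMap.toContinuousLinearMap
    { toFun := fun x => WithLp.toLp 2 fun i => x i.castSucc
      map_add' := fun _ _ => rfl
      map_smul' := fun _ _ => rfl }
  have hP : (zsq : X E → ℝ) = fun x => ‖P x‖ ^ 2 := funext fun x => (PiLp.norm_sq_eq_of_L2 _ (P x)).symm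
  have h1 : ∀ v, ‖P v‖ ≤ ‖v‖ := fun v => by
    refine abs_le_of_sq_le_sq' ?_ (norm_nonneg _) |>.2
    rw [PiLp.norm_sq_eq_of_L2 _ v, Fin.sum_univ_castSucc, PiLp.norm_sq_eq_of_L2]
    exact le_add_of_nonneg_right (sq_nonneg _)
  rw [hP]
  refine ⟨contDiff_const.mul (P.contDiff.norm_sq ℝ), fun x => ⟨sq_nonneg _, ?_⟩⟩
  have h2 : ‖gradient (fun x : X E => a * ‖P x‖ ^ 2) x‖ ≤ 2 * |a| * ‖P x‖ := by
    rw [gradient, LinearIsometryEquiv.norm_map, (P.hasFDerivAt.norm_sq.const_mul a).fderiv]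
    refine ContinuousLinearMap.opNorm_le_bound _ (by positivity) fun v => ?_
    have := (abs_real_inner_le_norm (P x) (P v)).trans
      (mul_le_mul_of_nonneg_left (h1 v) (norm_nonneg (P x)))
    have h3 := mul_le_mul_of_nonneg_left this (abs_nonneg a)
    simp only [smul_apply, ContinuousLinearMap.comp_apply, innerSL_apply_apply, smul_eq_mul,
      nsmul_eq_mul, norm_mul, Real.norm_eq_abs, Nat.cast_ofNat, abs_two]
    linarith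
  refine (pow_le_pow_left₀ (norm_nonneg _) h2 2).trans (le_of_eq ?_)
  rw [mul_pow, mul_pow, sq_abs]
  norm_num

theorem he_step {c B ε ε' : ℝ} (hc : 0 < c) (hε : 2 * |ε' - ε| ≤ c / (c + 8))
    (hag : ∀ ψ, Cls 𝔤 C σ.G neut ψ → ∫ x, (c * zsq x - B) * ‖ψ x‖ ^ 2 ≤ ∫ x, ‖Qe 𝔤 C σ ε ψ x‖ ^ 2) :
    (NonTriv (WK (flows 𝔤 C σ.G neut) (Qe 𝔤 C σ ε)) → NonTriv (WK (flows 𝔤 C σ.G neut) (Qe 𝔤 C σ ε'))) ∧
    (AtMostOne (WK (flows 𝔤 C σ.G neut) (Qe 𝔤 C σ ε')) →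
      AtMostOne (WK (flows 𝔤 C σ.G neut) (Qe 𝔤 C σ ε))) := by
  obtain ⟨h1, h2⟩ := he_zsq (E := E) (c / (c + 8))
  have := he_pr 𝔤 C σ (ε := ε) (ε' := ε') (Fn := fun _ => 0) (Fn' := fun _ => 0) contDiff_const
    contDiff_const (fun _ _ => rfl) (fun _ _ => rfl) (k := fun x => c / (c + 8) * zsq x) fun y => by
      rw [sub_self, add_zero, abs_mul]
      nlinarith [mul_le_mul_of_nonneg_left (abs_mu_le y) (abs_nonneg (ε' - ε)),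
        mul_le_mul_of_nonneg_right hε (h2 y).1]
  rw [gradient_fun_const'] at this
  refine this fun Ψ hΨ => ?_
  have hw := contDiff_wd 𝔤 σ ε (f := fun _ => 0) contDiff_const
  rw [Qd, wk_eq_sk C _ hw (symOK_flows 𝔤 C σ.G neut_ok)
    (compat_Qd 𝔤 C σ (fun p hp => by rw [show p = (V0, 0) from hp]) ε fun _ _ => (map_zero _).symm)] at hΨ
  refine agmon C _ (norm_cmap σ.G σ.unit) hw (he_zsq c).1.continuous B
    (fun ψ hψ => hag ψ ((cls_iff_ds 𝔤 C σ.G neut ψ).2 hψ)) h1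
    (fun p hp x => by simp only [invS_zsq 𝔤 C σ p hp x]) (fun x => mul_nonneg (by positivity) (h2 x).1)
    (fun x => mul_le_mul_of_nonneg_right (div_le_self hc.le (by linarith)) (h2 x).1) (fun x => ?_) hΨ
  have h3 : 8 * (c / (c + 8)) ^ 2 ≤ c := by
    rw [div_pow, ← mul_div_assoc, div_le_iff₀ (by positivity)]
    nlinarith [pow_pos hc 3, pow_pos hc 2]
  nlinarith [(h2 x).2, mul_le_mul_of_nonneg_right h3 (h2 x).1]

/-- Constancy of the neutral kernel along the ray `ε > 0` (Porrati–Rozenberg + Agmon). -/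
theorem ray_const
    (hag : ∀ ε₁ ε₂ : ℝ, 0 < ε₁ → ε₁ ≤ ε₂ → ∃ c B : ℝ, 0 < c ∧ ∀ ε, ε₁ ≤ ε → ε ≤ ε₂ →
      ∀ ψ, Cls 𝔤 C σ.G neut ψ →
        ∫ x, (c * zsq x - B) * ‖ψ x‖ ^ 2 ≤ ∫ x, ‖Qe 𝔤 C σ ε ψ x‖ ^ 2)
    {Λ : ℝ} (hΛ : 0 < Λ) {Fn : E → ℝ} (hF : ContDiff ℝ ∞ Fn) (hFc : HasCompactSupport Fn)
    (hFi : ∀ ξ v, Fn (rexp' (𝔤.br ξ) v) = Fn v)
    (h1 : NonTriv (WK (flows 𝔤 C σ.G neut) (Qd 𝔤 C σ Λ (gradient Fn))))
    (h2 : AtMostOne (WK (flows 𝔤 C σ.G neut) (Qd 𝔤 C σ Λ (gradient Fn)))) (ε : ℝ) (hε : 0 < ε) :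
    NonTriv (WK (flows 𝔤 C σ.G neut) (Qe 𝔤 C σ ε)) ∧
      AtMostOne (WK (flows 𝔤 C σ.G neut) (Qe 𝔤 C σ ε)) := by
  obtain ⟨M, hM⟩ := hF.continuous.bounded_above_of_compact_support hFc
  have a1 := (he_pr 𝔤 C σ (ε := Λ) (ε' := Λ) hF (Fn' := fun _ => 0) contDiff_const hFi (fun _ _ => rfl)
    (k := fun _ => M) (fun y => by simpa using hM (y 8)) fun Ψ hΨ => hΨ.1.1.const_smul _).1 h1
  have a2 := (he_pr 𝔤 C σ (ε := Λ) (ε' := Λ) (Fn := fun _ => 0) contDiff_const hF (fun _ _ => rfl) hFi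
    (k := fun _ => M) (fun y => by simpa using hM (y 8)) fun Ψ hΨ => hΨ.1.1.const_smul _).2 h2
  rw [gradient_fun_const'] at a1 a2
  refine isPreconnected_Ioi.induction₂' (fun s t : ℝ =>
    (NonTriv (WK (flows 𝔤 C σ.G neut) (Qe 𝔤 C σ s)) ∧ AtMostOne (WK (flows 𝔤 C σ.G neut) (Qe 𝔤 C σ s))) →
      NonTriv (WK (flows 𝔤 C σ.G neut) (Qe 𝔤 C σ t)) ∧ AtMostOne (WK (flows 𝔤 C σ.G neut) (Qe 𝔤 C σ t)))
    (fun s (hs : 0 < s) => ?_) (fun _ _ _ _ _ _ h h' k => h' (h k)) hΛ hε ⟨a1, a2⟩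
  obtain ⟨c, B, hc, H⟩ := hag (s / 2) (2 * s) (half_pos hs) (by linarith)
  have h0 : 0 < c / (c + 8) / 2 := by positivity
  filter_upwards [mem_nhdsWithin_of_mem_nhds (Icc_mem_nhds (half_lt_self hs) (by linarith : s < 2 * s)),
    mem_nhdsWithin_of_mem_nhds (Metric.closedBall_mem_nhds s h0)] with t ht hd
  rw [mem_closedBall_iff_norm, Real.norm_eq_abs] at hd
  have k1 := he_step 𝔤 C σ (ε' := t) hc (by linarith) (H s (by linarith) (by linarith))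
  have k2 := he_step 𝔤 C σ (ε' := s) hc (by rw [abs_sub_comm]; linarith) (H t ht.1 ht.2)
  exact ⟨fun h => ⟨k1.1 h.1, k2.2 h.2⟩, fun h => ⟨k2.1 h.1, k1.2 h.2⟩⟩

end Crest.Agent.R330

end
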